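import Vale.Agent.H6.Sat.Ops

/-! Rows R1, R2: abstract operator inequalities. -/

namespace P170
open Finset

variable {ι : Type*}

/-- Row R1. `D t = (A^t-G^t) u` satisfies `D (t+1) = G (D t) + p A^t ((1-K') u)`, `D ≥ 0`,
`G = A + p K' - p`, so `D (t+1) ≤ (A + p K') D t + p A^t ψ`; induction with Pascal. -/
theorem diff_bound (A G K' : Module.End ℝ (ι → ℝ)) (p : ℝ) (hp : 0 ≤ p) (hA : Pos A)
    (hG : Pos G) (hK' : Pos K') (hAG : A - G = p • (1 - K')) (hc : Commute A K') (u : ι → ℝ)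
    (hψ : ∀ S, 0 ≤ ((1 - K') u) S) (t : ℕ) (S : ι) :
    ((A ^ t - G ^ t) u) S
      ≤ ∑ i ∈ range t, (t.choose (i + 1) : ℝ) * p ^ (i + 1)
          * ((A ^ (t - 1 - i) * K' ^ i) ((1 - K') u)) S := by
  set ψ := (1 - K') u with hψdef
  have hGeq : G = A + p • K' - p • 1 := by
    have : G = A - p • (1 - K') := by rw [← hAG]; abel
    rw [this, smul_sub]; abel
  have hcG : Commute A G := by
    rw [hGeq]
    exact ((Commute.refl A).add_right (hc.smul_right p)).sub_right
      ((Commute.one_right A).smul_right p)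
  -- recursion
  have hrec : ∀ t : ℕ, (A ^ (t + 1) - G ^ (t + 1)) u =
      G ((A ^ t - G ^ t) u) + p • (A ^ t) ψ := by
    intro t
    have e1 : A ^ (t + 1) - G ^ (t + 1) = G * (A ^ t - G ^ t) + A ^ t * (A - G) := by
      have h1 : A ^ t * G = G * A ^ t := ((hcG.pow_left t).eq)
      rw [mul_sub, mul_sub, pow_succ A, pow_succ' G, h1]; abel
    rw [e1, hAG, LinearMap.add_apply, Module.End.mul_apply, Module.End.mul_apply,
      LinearMap.smul_apply, map_smul]
  have hD0 : ∀ (t : ℕ) (S : ι), 0 ≤ ((A ^ t - G ^ t) u) S := by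
    intro t
    induction t with
    | zero => intro S; simp
    | succ t ih =>
      intro S
      rw [hrec, Pi.add_apply, Pi.smul_apply, smul_eq_mul]
      exact add_nonneg (hG _ ih S) (mul_nonneg hp ((hA.pow t) _ hψ S))
  induction t generalizing S with
  | zero => simp
  | succ t ih =>
    rw [hrec]
    have e2 : G ((A ^ t - G ^ t) u) = A ((A ^ t - G ^ t) u) + p • K' ((A ^ t - G ^ t) u)
        - p • ((A ^ t - G ^ t) u) := by
      have e2' : ∀ v : ι → ℝ, G v = A v + p • K' v - p • v := by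
        intro v
        have h := congrArg (fun L : Module.End ℝ (ι → ℝ) => L v) hGeq
        simpa only [LinearMap.sub_apply, LinearMap.add_apply, LinearMap.smul_apply,
          Module.End.one_apply] using h
      exact e2' _
    set R : ι → ℝ := ∑ i ∈ range t, ((t.choose (i + 1) : ℝ) * p ^ (i + 1)) •
      (A ^ (t - 1 - i) * K' ^ i) ψ with hR
    have hle : ∀ S, ((A ^ t - G ^ t) u) S ≤ R S := by
      intro S
      rw [hR, Finset.sum_apply]
      simp only [Pi.smul_apply, smul_eq_mul]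
      exact ih S
    have h1 : A ((A ^ t - G ^ t) u) S ≤ A R S := hA.mono hle S
    have h2 : K' ((A ^ t - G ^ t) u) S ≤ K' R S := hK'.mono hle S
    have e3 : A R = ∑ i ∈ range t, ((t.choose (i + 1) : ℝ) * p ^ (i + 1)) •
        (A ^ (t - i) * K' ^ i) ψ := by
      rw [hR, map_sum]
      apply sum_congr rfl
      intro i hi
      rw [map_smul, ← Module.End.mul_apply, ← mul_assoc, ← pow_succ']
      have : t - 1 - i + 1 = t - i := by have := mem_range.mp hi; omega
      rw [this]
    have e4 : p • K' R = ∑ i ∈ range t, ((t.choose (i + 1) : ℝ) * p ^ (i + 2)) •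
        (A ^ (t - (i + 1)) * K' ^ (i + 1)) ψ := by
      rw [hR, map_sum, smul_sum]
      apply sum_congr rfl
      intro i _
      rw [map_smul, ← Module.End.mul_apply, smul_smul]
      have h3 : K' * (A ^ (t - 1 - i) * K' ^ i) = A ^ (t - (i + 1)) * K' ^ (i + 1) := by
        have h4 : K' * A ^ (t - 1 - i) = A ^ (t - 1 - i) * K' := ((hc.pow_left _).eq).symm
        rw [← mul_assoc, h4, mul_assoc, ← pow_succ']
        have : t - 1 - i = t - (i + 1) := by omega
        rw [this]
      rw [h3]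
      congr 1
      ring
    have hgoal : (∑ i ∈ range (t + 1), ((t + 1).choose (i + 1) : ℝ) * p ^ (i + 1)
          * ((A ^ (t + 1 - 1 - i) * K' ^ i) ψ) S) =
        (A R) S + (p • K' R) S + (p • (A ^ t) ψ) S := by
      rw [e3, e4, Finset.sum_apply, Finset.sum_apply]
      simp only [Pi.smul_apply, smul_eq_mul, Nat.add_sub_cancel]
      have s1 : ∑ i ∈ range t, (t.choose (i + 1) : ℝ) * p ^ (i + 1) *
          ((A ^ (t - i) * K' ^ i) ψ) S = ∑ i ∈ range (t + 1), (t.choose (i + 1) : ℝ) * p ^ (i + 1) *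
          ((A ^ (t - i) * K' ^ i) ψ) S := by
        rw [sum_range_succ]; simp
      have s2 : ∑ i ∈ range t, (t.choose (i + 1) : ℝ) * p ^ (i + 2) *
          ((A ^ (t - (i + 1)) * K' ^ (i + 1)) ψ) S + p * ((A ^ t) ψ) S =
          ∑ i ∈ range (t + 1), (t.choose i : ℝ) * p ^ (i + 1) *
          ((A ^ (t - i) * K' ^ i) ψ) S := by
        rw [sum_range_succ' (fun i => (t.choose i : ℝ) * p ^ (i + 1) *
          ((A ^ (t - i) * K' ^ i) ψ) S)]
        simp
      rw [s1, add_assoc, s2, ← sum_add_distrib]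
      apply sum_congr rfl
      intro i _
      rw [Nat.choose_succ_succ]
      push_cast
      ring
    rw [hgoal, Pi.add_apply]
    have e5 := congrFun e2 S
    simp only [Pi.add_apply, Pi.sub_apply, Pi.smul_apply, smul_eq_mul] at e5 ⊢
    rw [e5]
    have h5 := hD0 t S
    nlinarith [mul_nonneg hp h5, mul_le_mul_of_nonneg_left h2 hp]

/-- Row R2. -/
theorem negbin (A Q : Module.End ℝ (ι → ℝ)) (p : ℝ) (hp : 0 < p) (hp1 : p ≤ 1) (hQ : Pos Q)
    (hA : A = p • Q + (1 - p) • 1) (ψ : ι → ℝ) (hψ : ∀ S, 0 ≤ ψ S) (T : ℕ) (S : ι) :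
    ∑ u ∈ range T, (A ^ u) ψ S ≤ p⁻¹ * ∑ v ∈ range T, (Q ^ v) ψ S := by
  have hApos : Pos A := by
    rw [hA]; exact (hQ.smul hp.le).add (Pos.one.smul (by linarith))
  have key : ∀ T : ℕ, ∀ S, (∑ u ∈ range T, (A ^ u) ψ) S ≤ (p⁻¹ • ∑ v ∈ range T, (Q ^ v) ψ) S := by
    intro T
    induction T with
    | zero => intro S; simp
    | succ T ih =>
      intro S
      have h1 := hApos.mono ih S
      rw [sum_range_succ' (fun u => (A ^ u) ψ)]
      have e1 : A (∑ u ∈ range T, (A ^ u) ψ) = ∑ u ∈ range T, (A ^ (u + 1)) ψ := by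
        rw [map_sum]; exact sum_congr rfl fun u _ => by rw [pow_succ']; rfl
      have e2 : A (p⁻¹ • ∑ v ∈ range T, (Q ^ v) ψ) =
          ∑ v ∈ range T, (Q ^ (v + 1)) ψ + (p⁻¹ - 1) • ∑ v ∈ range T, (Q ^ v) ψ := by
        rw [map_smul, map_sum, smul_sum, smul_sum, ← sum_add_distrib]
        apply sum_congr rfl
        intro v _
        rw [hA]
        simp only [LinearMap.add_apply, LinearMap.smul_apply, Module.End.one_apply]
        rw [pow_succ' Q, smul_add, smul_smul, inv_mul_cancel₀ hp.ne', one_smul, smul_smul]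
        congr 1
        rw [mul_sub, mul_one, inv_mul_cancel₀ hp.ne']
      rw [e1, e2] at h1
      have h3 : 0 ≤ (∑ v ∈ range T, (Q ^ v) ψ) S := by
        rw [Finset.sum_apply]; exact sum_nonneg fun v _ => hQ.pow v ψ hψ S
      have h4 : 0 ≤ ((Q ^ T) ψ) S := hQ.pow T ψ hψ S
      have hpinv : 1 ≤ p⁻¹ := (one_le_inv₀ hp).mpr hp1
      have e3 : (∑ v ∈ range (T + 1), (Q ^ v) ψ) S =
          (∑ v ∈ range T, (Q ^ (v + 1)) ψ) S + ψ S := by
        rw [sum_range_succ']; simp
      have e4 : (∑ v ∈ range (T + 1), (Q ^ v) ψ) S =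
          (∑ v ∈ range T, (Q ^ v) ψ) S + ((Q ^ T) ψ) S := by
        rw [sum_range_succ]; simp
      simp only [Pi.add_apply, Pi.smul_apply, smul_eq_mul, pow_zero,
        Module.End.one_apply] at *
      nlinarith
  have := key T S
  simp only [Pi.smul_apply, smul_eq_mul, Finset.sum_apply] at this
  exact this

end P170
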