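import Vale.Agent.H6.Sat.First

/-! Row F2: comparison of the two clause models. -/

namespace P170
open Finset Filter Topology

/-- probability that a random `k`-clause uses `k` distinct variables -/
noncomputable def dp (k n : ℕ) : ℝ := (n.descFactorial k : ℝ) / (n : ℝ) ^ k

/-- the literals of the tuple `c` form the set `C` -/
theorem card_fiber (k n : ℕ) (C : PClause n k) :
    (univ.filter (fun c : Cl k n => univ.image c = C.1)).card = k.factorial := by
  classical
  have h1 : Fintype.card (Fin k ↪ C.1) = k.factorial := by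
    rw [Fintype.card_embedding_eq, Fintype.card_fin, Fintype.card_coe, C.2.1,
      Nat.descFactorial_self]
  rw [← h1, ← Finset.card_univ]
  symm
  refine Finset.card_bij (fun (e : Fin k ↪ C.1) _ => fun i => (e i : Lit n)) ?_ ?_ ?_
  · intro e _
    simp only [mem_filter, mem_univ, true_and]
    apply Finset.eq_of_subset_of_card_le
    · intro x hx
      obtain ⟨i, _, rfl⟩ := Finset.mem_image.mp hx
      exact (e i).2
    · rw [C.2.1, Finset.card_image_of_injective _ (fun a b hab => e.injective (Subtype.ext hab))]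
      simp
  · intro e _ e' _ h
    ext i : 2
    exact congrFun h i
  · intro c hc
    simp only [mem_filter, mem_univ, true_and] at hc
    have hmem : ∀ i, c i ∈ C.1 := fun i => by
      rw [← hc]; exact Finset.mem_image_of_mem c (mem_univ i)
    have hinj : Function.Injective c := by
      have h2 : (univ.image c).card = (univ : Finset (Fin k)).card := by
        rw [hc, C.2.1]; simp
      have h3 := Finset.card_image_iff.mp h2
      intro a b hab
      exact h3 (by simp) (by simp) hab
    refine ⟨⟨fun i => ⟨c i, hmem i⟩, ?_⟩, mem_univ _, rfl⟩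
    intro a b hab
    exact hinj (congrArg Subtype.val hab)

/-- counting formulas over proper clauses -/
theorem card_formulas (k n m : ℕ) (P : (Fin m → PClause n k) → Prop) [DecidablePred P] :
    (univ.filter (fun F : Fin m → Cl k n =>
      ∃ G : Fin m → PClause n k, P G ∧ ∀ j, univ.image (F j) = (G j).1)).card
      = (univ.filter P).card * k.factorial ^ m := by
  classical
  have h1 : (univ.filter (fun F : Fin m → Cl k n =>
      ∃ G : Fin m → PClause n k, P G ∧ ∀ j, univ.image (F j) = (G j).1)) =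
      (univ.filter P).biUnion (fun G => Fintype.piFinset fun j =>
        univ.filter (fun c : Cl k n => univ.image c = (G j).1)) := by
    ext F
    simp only [mem_filter, mem_univ, true_and, mem_biUnion, Fintype.mem_piFinset]
  rw [h1, Finset.card_biUnion]
  · have h2 : ∀ G ∈ univ.filter P, (Fintype.piFinset fun j =>
        univ.filter (fun c : Cl k n => univ.image c = (G j).1)).card = k.factorial ^ m := by
      intro G _
      rw [Fintype.card_piFinset]
      simp only [card_fiber]
      simp
    rw [Finset.sum_congr rfl h2, Finset.sum_const, smul_eq_mul]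
  · intro G _ G' _ hGG'
    rw [Function.onFun, Finset.disjoint_left]
    intro F hF hF'
    apply hGG'
    rw [Fintype.mem_piFinset] at hF hF'
    funext j
    have e1 := (mem_filter.mp (hF j)).2
    have e2 := (mem_filter.mp (hF' j)).2
    exact Subtype.ext (e1.symm.trans e2)

/-- the number of proper clauses -/
theorem card_pclause (k n : ℕ) :
    Fintype.card (PClause n k) * k.factorial = 2 ^ k * n.descFactorial k := by
  classical
  -- tuples whose variables are distinct
  have h1 : (univ.filter (fun c : Cl k n => Function.Injective fun i => (c i).1)).card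
      = 2 ^ k * n.descFactorial k := by
    have h2 : Fintype.card ((Fin k ↪ Fin n) × (Fin k → Bool)) = 2 ^ k * n.descFactorial k := by
      rw [Fintype.card_prod, Fintype.card_embedding_eq, Fintype.card_fin, Fintype.card_fin,
        Fintype.card_fun, Fintype.card_bool, Fintype.card_fin, mul_comm]
    rw [← h2, ← Finset.card_univ]
    symm
    refine Finset.card_bij (fun (p : (Fin k ↪ Fin n) × (Fin k → Bool)) _ =>
      fun i => (p.1 i, p.2 i)) ?_ ?_ ?_
    · intro p _
      simp only [mem_filter, mem_univ, true_and]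
      exact p.1.injective
    · intro p _ q _ h
      apply Prod.ext
      · ext i
        have := congrArg Prod.fst (congrFun h i)
        exact congrArg Fin.val this
      · funext i
        exact congrArg Prod.snd (congrFun h i)
    · intro c hc
      simp only [mem_filter, mem_univ, true_and] at hc
      exact ⟨(⟨fun i => (c i).1, hc⟩, fun i => (c i).2), mem_univ _, rfl⟩
  have h3 : (univ.filter (fun c : Cl k n => Function.Injective fun i => (c i).1)) =
      (univ : Finset (PClause n k)).biUnion
        (fun C => univ.filter (fun c : Cl k n => univ.image c = C.1)) := by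
    ext c
    simp only [mem_filter, mem_univ, true_and, mem_biUnion]
    constructor
    · intro hc
      have hc' : Function.Injective c := fun a b hab => hc (congrArg Prod.fst hab)
      refine ⟨⟨univ.image c, ?_, ?_⟩, rfl⟩
      · rw [Finset.card_image_of_injective _ hc']; simp
      · rw [Finset.image_image, Finset.card_image_of_injective _ (f := Prod.fst ∘ c) hc]; simp
    · rintro ⟨C, hC⟩
      have h4 : ((univ.image c).image Prod.fst).card = (univ : Finset (Fin k)).card := by
        rw [hC, C.2.2]; simp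
      rw [Finset.image_image] at h4
      have h5 := Finset.card_image_iff.mp h4
      intro a b hab
      exact h5 (by simp) (by simp) hab
  rw [h3, Finset.card_biUnion] at h1
  · simp only [card_fiber] at h1
    rw [← h1, Finset.sum_const, Finset.card_univ, smul_eq_mul]
  · intro C _ C' _ hCC'
    rw [Function.onFun, Finset.disjoint_left]
    intro c hc hc'
    apply hCC'
    exact Subtype.ext ((mem_filter.mp hc).2.symm.trans (mem_filter.mp hc').2)

theorem csat_iff {k n : ℕ} {c : Cl k n} {C : PClause n k} (h : univ.image c = C.1)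
    (σ : Fin n → Bool) : csat c σ ↔ ∃ l ∈ C.1, σ l.1 = l.2 := by
  rw [← h]
  simp [csat]

theorem dp_eq (k n : ℕ) :
    dp k n = (Fintype.card (PClause n k) : ℝ) * k.factorial / (2 * n : ℝ) ^ k := by
  have h := card_pclause k n
  have h' : (Fintype.card (PClause n k) : ℝ) * k.factorial = 2 ^ k * n.descFactorial k := by
    exact_mod_cast h
  rw [h', dp, mul_pow, mul_div_mul_left _ _ (by positivity)]

theorem card_pclause_pos (k n : ℕ) (hk : k ≤ n) : 0 < Fintype.card (PClause n k) := by
  have h := card_pclause k n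
  have h2 : 0 < n.descFactorial k := Nat.descFactorial_pos.mpr hk
  rcases Nat.eq_zero_or_pos (Fintype.card (PClause n k)) with h3 | h3
  · rw [h3, zero_mul] at h
    have : 0 < 2 ^ k * n.descFactorial k := by positivity
    omega
  · exact h3

/-- ordered clauses with distinct variables, as tuples: `k!` of them for each proper clause. -/
theorem conv_lower (k n m : ℕ) (hk : k ≤ n) (hn : 1 ≤ n) :
    (dp k n) ^ m * satProb k n m ≤ PP k n m := by
  classical
  have hpos : (0 : ℝ) < Fintype.card (PClause n k) := by exact_mod_cast card_pclause_pos k n hk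
  have hn0 : (0 : ℝ) < n := by exact_mod_cast hn
  rw [PP_eq, satProb, dp_eq k n]
  have h1 := card_formulas k n m (fun F => Satisfiable F)
  have h2 : (univ.filter (fun F : Fin m → Cl k n =>
      ∃ G : Fin m → PClause n k, Satisfiable G ∧ ∀ j, univ.image (F j) = (G j).1)).card ≤
      (univ.filter (fun F : Fin m → Cl k n => ∃ σ, ∀ j, csat (F j) σ)).card := by
    apply Finset.card_le_card
    intro F hF
    simp only [mem_filter, mem_univ, true_and] at hF ⊢
    obtain ⟨G, ⟨σ, hσ⟩, hG⟩ := hF
    exact ⟨σ, fun j => (csat_iff (hG j) σ).mpr (hσ j)⟩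
  rw [h1] at h2
  have h3 : (((univ.filter (fun F : Fin m → PClause n k => Satisfiable F)).card : ℝ)
      * (k.factorial : ℝ) ^ m) ≤
      ((univ.filter (fun F : Fin m → Cl k n => ∃ σ, ∀ j, csat (F j) σ)).card : ℝ) := by
    exact_mod_cast h2
  have h4 : (Fintype.card (Fin m → PClause n k) : ℝ) = (Fintype.card (PClause n k) : ℝ) ^ m := by
    rw [Fintype.card_fun, Fintype.card_fin]; push_cast; rfl
  rw [h4, div_pow, mul_pow]
  have h5 : (0 : ℝ) < ((2 * n : ℝ) ^ k) ^ m := by positivity
  have h6 : (Fintype.card (PClause n k) : ℝ) ^ m * (k.factorial : ℝ) ^ m / ((2 * n : ℝ) ^ k) ^ m *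
      (((univ.filter (fun F : Fin m → PClause n k => Satisfiable F)).card : ℝ) /
        (Fintype.card (PClause n k) : ℝ) ^ m) =
      (((univ.filter (fun F : Fin m → PClause n k => Satisfiable F)).card : ℝ)
      * (k.factorial : ℝ) ^ m) / ((2 * n : ℝ) ^ k) ^ m := by
    field_simp
  refine le_trans (le_of_eq ?_) (div_le_div_of_nonneg_right h3 h5.le)
  convert h6 using 5

theorem conv_upper (k n m : ℕ) (hk : k ≤ n) (hn : 1 ≤ n) :
    (dp k n) ^ m * (1 - satProb k n m) ≤ 1 - PP k n m := by
  classical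
  have hpos : (0 : ℝ) < Fintype.card (PClause n k) := by exact_mod_cast card_pclause_pos k n hk
  have hn0 : (0 : ℝ) < n := by exact_mod_cast hn
  rw [PP_eq, satProb, dp_eq k n]
  have h1 := card_formulas k n m (fun F => ¬ Satisfiable F)
  have h2 : (univ.filter (fun F : Fin m → Cl k n =>
      ∃ G : Fin m → PClause n k, ¬ Satisfiable G ∧ ∀ j, univ.image (F j) = (G j).1)).card ≤
      (univ.filter (fun F : Fin m → Cl k n => ¬ ∃ σ, ∀ j, csat (F j) σ)).card := by
    apply Finset.card_le_card
    intro F hF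
    simp only [mem_filter, mem_univ, true_and] at hF ⊢
    obtain ⟨G, hG0, hG⟩ := hF
    rintro ⟨σ, hσ⟩
    exact hG0 ⟨σ, fun j => (csat_iff (hG j) σ).mp (hσ j)⟩
  rw [h1] at h2
  have h3 : (((univ.filter (fun F : Fin m → PClause n k => ¬ Satisfiable F)).card : ℝ)
      * (k.factorial : ℝ) ^ m) ≤
      ((univ.filter (fun F : Fin m → Cl k n => ¬ ∃ σ, ∀ j, csat (F j) σ)).card : ℝ) := by
    exact_mod_cast h2
  have h4 : (Fintype.card (Fin m → PClause n k) : ℝ) = (Fintype.card (PClause n k) : ℝ) ^ m := by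
    rw [Fintype.card_fun, Fintype.card_fin]; push_cast; rfl
  have h5 : (0 : ℝ) < ((2 * n : ℝ) ^ k) ^ m := by positivity
  have e1 : ((univ.filter (fun F : Fin m → PClause n k => Satisfiable F)).card : ℝ) +
      ((univ.filter (fun F : Fin m → PClause n k => ¬ Satisfiable F)).card : ℝ) =
      (Fintype.card (PClause n k) : ℝ) ^ m := by
    rw [← h4, ← Finset.card_univ]
    exact_mod_cast Finset.card_filter_add_card_filter_not (s := univ)
      (fun F : Fin m → PClause n k => Satisfiable F)
  have e2 : ((univ.filter (fun F : Fin m → Cl k n => ∃ σ, ∀ j, csat (F j) σ)).card : ℝ) +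
      ((univ.filter (fun F : Fin m → Cl k n => ¬ ∃ σ, ∀ j, csat (F j) σ)).card : ℝ) =
      ((2 * n : ℝ) ^ k) ^ m := by
    have e3 : (Fintype.card (Fin m → Cl k n) : ℝ) = ((2 * n : ℝ) ^ k) ^ m := by
      rw [Fintype.card_fun, Fintype.card_fun, Fintype.card_fin, Fintype.card_fin,
        Fintype.card_prod, Fintype.card_fin, Fintype.card_bool]
      push_cast
      ring
    rw [← e3, ← Finset.card_univ]
    exact_mod_cast Finset.card_filter_add_card_filter_not (s := univ)
      (fun F : Fin m → Cl k n => ∃ σ, ∀ j, csat (F j) σ)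
  rw [h4, div_pow, mul_pow]
  have hM : (0 : ℝ) < (Fintype.card (PClause n k) : ℝ) ^ m := by positivity
  have e4 : 1 - ((univ.filter (fun F : Fin m → PClause n k => Satisfiable F)).card : ℝ) /
        (Fintype.card (PClause n k) : ℝ) ^ m =
      ((univ.filter (fun F : Fin m → PClause n k => ¬ Satisfiable F)).card : ℝ) /
        (Fintype.card (PClause n k) : ℝ) ^ m := by
    rw [eq_div_iff hM.ne', sub_mul, div_mul_cancel₀ _ hM.ne']
    linarith
  have e5 : 1 - ((univ.filter (fun F : Fin m → Cl k n => ∃ σ, ∀ j, csat (F j) σ)).card : ℝ) /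
      ((2 * n : ℝ) ^ k) ^ m =
      ((univ.filter (fun F : Fin m → Cl k n => ¬ ∃ σ, ∀ j, csat (F j) σ)).card : ℝ) /
      ((2 * n : ℝ) ^ k) ^ m := by
    rw [eq_div_iff h5.ne', sub_mul, div_mul_cancel₀ _ h5.ne']
    linarith
  have h6 : (Fintype.card (PClause n k) : ℝ) ^ m * (k.factorial : ℝ) ^ m / ((2 * n : ℝ) ^ k) ^ m *
      (((univ.filter (fun F : Fin m → PClause n k => ¬ Satisfiable F)).card : ℝ) /
        (Fintype.card (PClause n k) : ℝ) ^ m) =
      (((univ.filter (fun F : Fin m → PClause n k => ¬ Satisfiable F)).card : ℝ)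
      * (k.factorial : ℝ) ^ m) / ((2 * n : ℝ) ^ k) ^ m := by
    field_simp
  rw [e5]
  refine le_trans (le_of_eq ?_) (div_le_div_of_nonneg_right h3 h5.le)
  rw [← h6]
  congr 1

/-- `dp^⌊cn⌋ ≥ exp(-c k²)`-type bound -/
theorem dp_pow_ge (k : ℕ) (c : ℝ) (hc : 0 ≤ c) :
    ∃ δ : ℝ, 0 < δ ∧ ∀ᶠ n : ℕ in atTop, δ ≤ (dp k n) ^ ⌊c * n⌋₊ := by
  refine ⟨Real.exp (-(2 * c * k ^ 2)), Real.exp_pos _, ?_⟩
  filter_upwards [eventually_ge_atTop (2 * k + 1)] with n hn
  have hn0 : (0 : ℝ) < n := by
    have : 0 < n := by omega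
    exact_mod_cast this
  have hkn : (k : ℝ) / n ≤ 1 / 2 := by
    rw [div_le_div_iff₀ hn0 (by norm_num)]
    have : 2 * k ≤ n := by omega
    have h' : (2 * k : ℝ) ≤ n := by exact_mod_cast this
    linarith
  have hx0 : 0 ≤ (k : ℝ) / n := by positivity
  have h1 : Real.exp (-(2 * ((k : ℝ) / n))) ≤ 1 - (k : ℝ) / n := by
    set x := (k : ℝ) / n
    have h2 : 1 + 2 * x ≤ Real.exp (2 * x) := by
      have := Real.add_one_le_exp (2 * x); linarith
    rw [Real.exp_neg]
    calc (Real.exp (2 * x))⁻¹ ≤ (1 + 2 * x)⁻¹ := by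
          apply inv_anti₀ (by linarith) h2
      _ ≤ 1 - x := by
          rw [inv_le_iff_one_le_mul₀ (by linarith)]
          nlinarith
  have h3 : (1 - (k : ℝ) / n) ^ k ≤ dp k n := by
    have h4 : (n - k) ^ k ≤ n.descFactorial k := by
      refine le_trans ?_ (Nat.pow_sub_le_descFactorial n k)
      exact Nat.pow_le_pow_left (by omega) k
    have h5 : ((n : ℝ) - k) ^ k ≤ n.descFactorial k := by
      have h6 : (((n - k : ℕ) : ℝ)) ^ k ≤ n.descFactorial k := by exact_mod_cast h4
      rwa [Nat.cast_sub (by omega)] at h6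
    have h7 : (1 - (k : ℝ) / n) = ((n : ℝ) - k) / n := by field_simp
    rw [h7, div_pow, dp]
    exact div_le_div_of_nonneg_right h5 (by positivity)
  have h8 : Real.exp (-(2 * c * k ^ 2)) ≤ ((1 - (k : ℝ) / n) ^ k) ^ ⌊c * n⌋₊ := by
    have h9 : (Real.exp (-(2 * ((k : ℝ) / n)))) ^ (k * ⌊c * n⌋₊) ≤
        ((1 - (k : ℝ) / n) ^ k) ^ ⌊c * n⌋₊ := by
      rw [← pow_mul]
      exact pow_le_pow_left₀ (Real.exp_pos _).le h1 _
    refine le_trans ?_ h9
    rw [← Real.exp_nat_mul]
    apply Real.exp_le_exp.mpr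
    have h10 : (⌊c * n⌋₊ : ℝ) ≤ c * n := Nat.floor_le (by positivity)
    have h11 : ((k * ⌊c * n⌋₊ : ℕ) : ℝ) * (2 * ((k : ℝ) / n)) ≤ 2 * c * k ^ 2 := by
      push_cast
      calc (k : ℝ) * ⌊c * n⌋₊ * (2 * ((k : ℝ) / n))
          ≤ (k : ℝ) * (c * n) * (2 * ((k : ℝ) / n)) := by
            apply mul_le_mul_of_nonneg_right _ (by positivity)
            exact mul_le_mul_of_nonneg_left h10 (by positivity)
        _ = 2 * c * k ^ 2 := by field_simp
    linarith
  exact h8.trans (pow_le_pow_left₀ (pow_nonneg (by linarith) _) h3 _)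

theorem satProb_nonneg (k n m : ℕ) : 0 ≤ satProb k n m := by
  unfold satProb; positivity

theorem satProb_le_one (k n m : ℕ) : satProb k n m ≤ 1 := by
  unfold satProb
  apply div_le_one_of_le₀ _ (by positivity)
  exact_mod_cast Finset.card_le_univ _

/-- transfer of the threshold -/
theorem transfer (k : ℕ)
    (h : ∃ α : ℝ, 0 < α ∧
      (∀ c : ℝ, 0 ≤ c → c < α → Tendsto (fun n : ℕ => PP k n ⌊c * n⌋₊) atTop (𝓝 1)) ∧
      (∀ c : ℝ, α < c → Tendsto (fun n : ℕ => PP k n ⌊c * n⌋₊) atTop (𝓝 0))) :
    HasLimitingThreshold k := by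
  obtain ⟨α, hα, h1, h2⟩ := h
  refine ⟨α, hα, fun c hc hcα => ?_, fun c hcα => ?_⟩
  · obtain ⟨δ, hδ, hδn⟩ := dp_pow_ge k c hc
    have h3 : Tendsto (fun n : ℕ => 1 - (1 - PP k n ⌊c * n⌋₊) / δ) atTop (𝓝 1) := by
      have h4 : Tendsto (fun n : ℕ => 1 - (1 - PP k n ⌊c * n⌋₊) / δ) atTop
          (𝓝 (1 - (1 - 1) / δ)) :=
        tendsto_const_nhds.sub ((tendsto_const_nhds.sub (h1 c hc hcα)).div_const δ)
      simpa using h4
    refine tendsto_of_tendsto_of_tendsto_of_le_of_le' h3 tendsto_const_nhds ?_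
      (Eventually.of_forall fun n => satProb_le_one _ _ _)
    filter_upwards [hδn, eventually_ge_atTop (k + 1)] with n hn hn2
    have h5 := conv_upper k n ⌊c * n⌋₊ (by omega) (by omega)
    have h6 := satProb_le_one k n ⌊c * n⌋₊
    have h7 : δ * (1 - satProb k n ⌊c * n⌋₊) ≤ 1 - PP k n ⌊c * n⌋₊ :=
      le_trans (mul_le_mul_of_nonneg_right hn (by linarith)) h5
    have h8 : 1 - satProb k n ⌊c * n⌋₊ ≤ (1 - PP k n ⌊c * n⌋₊) / δ := by
      rw [le_div_iff₀ hδ]; linarith
    linarith
  · obtain ⟨δ, hδ, hδn⟩ := dp_pow_ge k c (by linarith)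
    have h3 : Tendsto (fun n : ℕ => PP k n ⌊c * n⌋₊ / δ) atTop (𝓝 0) := by
      have h4 := (h2 c hcα).div_const δ
      simpa using h4
    refine tendsto_of_tendsto_of_tendsto_of_le_of_le' tendsto_const_nhds h3
      (Eventually.of_forall fun n => satProb_nonneg _ _ _) ?_
    filter_upwards [hδn, eventually_ge_atTop (k + 1)] with n hn hn2
    have h5 := conv_lower k n ⌊c * n⌋₊ (by omega) (by omega)
    have h6 := satProb_nonneg k n ⌊c * n⌋₊
    have h7 : δ * satProb k n ⌊c * n⌋₊ ≤ PP k n ⌊c * n⌋₊ :=
      le_trans (mul_le_mul_of_nonneg_right hn h6) h5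
    rw [le_div_iff₀ hδ]; linarith

end P170
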