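import Mathlib

/-!
# P170: the satisfiability threshold conjecture.  Definitions.
-/

namespace P170

open Finset Filter Topology

/-! ### Problem-level definitions -/

/-- A proper `k`-clause on `n` variables: a set of `k` literals `(variable, sign)` on `k` distinct
variables. -/
abbrev PClause (n k : ℕ) :=
  {c : Finset (Fin n × Bool) // c.card = k ∧ (c.image Prod.fst).card = k}

/-- the formula `C_1 ∧ ... ∧ C_m` is satisfiable -/
def Satisfiable {n k m : ℕ} (F : Fin m → PClause n k) : Prop :=
  ∃ σ : Fin n → Bool, ∀ j, ∃ l ∈ (F j).1, σ l.1 = l.2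

open Classical in
/-- `P_{k,n}(m)`: probability that `m` independent uniform proper `k`-clauses are satisfiable. -/
noncomputable def satProb (k n m : ℕ) : ℝ :=
  ((univ.filter (fun F : Fin m → PClause n k => Satisfiable F)).card : ℝ)
    / (Fintype.card (Fin m → PClause n k) : ℝ)

/-- random `k`-SAT has a limiting threshold -/
def HasLimitingThreshold (k : ℕ) : Prop :=
  ∃ α : ℝ, 0 < α ∧
    (∀ c : ℝ, 0 ≤ c → c < α → Tendsto (fun n : ℕ => satProb k n ⌊c * n⌋₊) atTop (𝓝 1)) ∧
    (∀ c : ℝ, α < c → Tendsto (fun n : ℕ => satProb k n ⌊c * n⌋₊) atTop (𝓝 0))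

/-! ### Averaging operators on functions of the set of solutions -/

/-- literals: variable and sign -/
abbrev Lit (n : ℕ) := Fin n × Bool
/-- `m`-clauses: arbitrary `m`-tuples of literals -/
abbrev Cl (m n : ℕ) := Fin m → Lit n
/-- states: sets of assignments (solution sets) -/
abbrev St (n : ℕ) := Finset (Fin n → Bool)

/-- `σ` satisfies `c` -/
def csat {m n : ℕ} (c : Cl m n) (σ : Fin n → Bool) : Prop := ∃ i, σ (c i).1 = (c i).2

instance {m n : ℕ} (c : Cl m n) (σ : Fin n → Bool) : Decidable (csat c σ) := by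
  unfold csat; infer_instance

/-- impose the clause `c` -/
def cut {m n : ℕ} (S : St n) (c : Cl m n) : St n := S.filter (fun σ => csat c σ)

/-- functions of states -/
abbrev Fn (n : ℕ) := St n → ℝ

/-- averaging operator: impose a uniformly random `m`-clause -/
noncomputable def K (m n : ℕ) : Module.End ℝ (Fn n) where
  toFun φ := fun S => (∑ c : Cl m n, φ (cut S c)) / (2 * n : ℝ) ^ m
  map_add' φ ψ := by
    funext S
    simp only [Pi.add_apply, Finset.sum_add_distrib, add_div]
  map_smul' a φ := by
    funext S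
    simp only [Pi.smul_apply, smul_eq_mul, RingHom.id_apply, ← Finset.mul_sum, mul_div_assoc]

/-- `1` if satisfiable -/
noncomputable def sv {n : ℕ} : Fn n := fun S => if S.Nonempty then 1 else 0

/-- literals which are false in all solutions -/
def Fz {n : ℕ} (S : St n) : Finset (Lit n) := univ.filter (fun l => ∀ σ ∈ S, σ l.1 ≠ l.2)

/-- frozen fraction -/
noncomputable def xx {n : ℕ} : Fn n := fun S =>
  if S.Nonempty then ((Fz S).card : ℝ) / (2 * n) else 0

/-- probability that `t` random clauses (iid literals) are satisfiable -/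
noncomputable def PP (k n t : ℕ) : ℝ := ((K k n) ^ t) sv univ

/-- positive operators -/
def Pos {ι : Type*} (T : Module.End ℝ (ι → ℝ)) : Prop :=
  ∀ φ : ι → ℝ, (∀ S, 0 ≤ φ S) → ∀ S, 0 ≤ T φ S

/-- Markov operators -/
def Mark {ι : Type*} (T : Module.End ℝ (ι → ℝ)) : Prop := Pos T ∧ T (fun _ => 1) = fun _ => 1

/-- `p_0`: probability that a random `k`-clause on `n+1` variables avoids a given variable -/
noncomputable def p0 (k n : ℕ) : ℝ := ((n : ℝ) / (n + 1)) ^ k
/-- `p_1`: probability that exactly one position uses a given literal and the others avoid the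
variable -/
noncomputable def p1 (k n : ℕ) : ℝ := (k : ℝ) / (2 * (n + 1)) * ((n : ℝ) / (n + 1)) ^ (k - 1)

/-- clauses avoiding the variable -/
noncomputable def AA (k n : ℕ) : Module.End ℝ (Fn n) := p0 k n • K k n + (1 - p0 k n) • 1

/-- clauses after setting the variable -/
noncomputable def GG (k n : ℕ) : Module.End ℝ (Fn n) :=
  p0 k n • K k n + p1 k n • K (k - 1) n + (1 - p0 k n - p1 k n) • 1

/-- `Φ_j = ∑_{t<T} E x` with `t` `k`-clauses and `j` `(k-1)`-clauses -/
noncomputable def Phi (k n T j : ℕ) : ℝ :=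
  ∑ t ∈ range T, ((K k n) ^ t * (K (k - 1) n) ^ j) xx univ

end P170
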