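import Vale.Agent.H6.Sat.Kill

/-! Row F1: first moment bound and unrolling `PP`. -/

namespace P170
open Finset Filter Topology

/-- number of solutions -/
noncomputable def first_N (n : ℕ) : Fn n := fun S => (S.card : ℝ)

theorem first_count_lit (n : ℕ) (σ : Fin n → Bool) :
    (univ.filter (fun l : Lit n => σ l.1 ≠ l.2)).card = n := by
  have h : (univ.filter (fun l : Lit n => σ l.1 ≠ l.2))
      = (univ : Finset (Fin n)).image (fun v => (v, !(σ v))) := by
    ext ⟨v, b⟩
    rw [Finset.mem_filter, Finset.mem_image]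
    constructor
    · rintro ⟨_, h⟩
      refine ⟨v, mem_univ _, ?_⟩
      cases hb : σ v <;> cases b <;> simp_all
    · rintro ⟨w, _, h2⟩
      rw [Prod.mk.injEq] at h2
      obtain ⟨rfl, h3⟩ := h2
      refine ⟨mem_univ _, ?_⟩
      subst h3
      cases σ w <;> simp
  rw [h, Finset.card_image_of_injective, card_univ, Fintype.card_fin]
  intro a b hab
  exact congrArg Prod.fst hab

theorem first_count_viol (k n : ℕ) (σ : Fin n → Bool) :
    (univ.filter (fun c : Cl k n => ¬ csat c σ)).card = n ^ k := by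
  classical
  have h : (univ.filter (fun c : Cl k n => ¬ csat c σ))
      = Fintype.piFinset (fun _ : Fin k => univ.filter (fun l : Lit n => σ l.1 ≠ l.2)) := by
    ext c
    simp [csat, Fintype.mem_piFinset]
  rw [h, Fintype.card_piFinset]
  simp only [first_count_lit, prod_const, card_univ, Fintype.card_fin]

theorem first_count_sat (k n : ℕ) (σ : Fin n → Bool) :
    ((univ.filter (fun c : Cl k n => csat c σ)).card : ℝ) = (2 * n : ℝ) ^ k - (n : ℝ) ^ k := by
  have h := Finset.card_filter_add_card_filter_not (s := (univ : Finset (Cl k n)))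
    (fun c => csat c σ)
  rw [first_count_viol, card_univ] at h
  have h2 : ((univ.filter (fun c : Cl k n => csat c σ)).card : ℝ) + (n : ℝ) ^ k
      = (2 * n : ℝ) ^ k := by
    rw [← card_Cl k n, ← h]
    push_cast
    ring
  linarith

theorem first_K_N (k n : ℕ) (hn : 1 ≤ n) :
    K k n (first_N n) = (1 - 1 / 2 ^ k : ℝ) • first_N n := by
  funext S
  rw [K_apply, Pi.smul_apply, smul_eq_mul]
  have hn' : (0 : ℝ) < n := by exact_mod_cast hn
  have h1 : ∑ c : Cl k n, first_N n (cut S c)
      = ∑ σ ∈ S, ((univ.filter (fun c : Cl k n => csat c σ)).card : ℝ) := by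
    unfold first_N cut
    simp only [Finset.card_filter, Nat.cast_sum]
    rw [Finset.sum_comm]
  rw [h1]
  simp only [first_count_sat, sum_const, nsmul_eq_mul, first_N]
  rw [mul_pow]
  field_simp

theorem first_pow_N (k n t : ℕ) (hn : 1 ≤ n) :
    ((K k n) ^ t) (first_N n) = ((1 - 1 / 2 ^ k : ℝ) ^ t) • first_N n := by
  induction t with
  | zero => simp
  | succ t ih =>
    rw [pow_succ, Module.End.mul_apply, first_K_N k n hn, map_smul, ih, smul_smul]
    congr 1
    ring

/-- `K_k |S| = (1-2^{-k}) |S|`, `sv ≤ |S|`. -/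
theorem first_moment (k n t : ℕ) (hn : 1 ≤ n) :
    PP k n t ≤ 2 ^ n * (1 - 1 / 2 ^ k) ^ t := by
  have hle : ∀ S : St n, sv S ≤ first_N n S := by
    intro S
    unfold sv first_N
    split_ifs with h
    · exact_mod_cast h.card_pos
    · positivity
  have h1 := ((K_pos k n).pow t).mono hle univ
  unfold PP
  refine h1.trans (le_of_eq ?_)
  rw [first_pow_N k n t hn, Pi.smul_apply, smul_eq_mul, first_N, card_univ]
  simp [Fintype.card_pi, mul_comm]

theorem upper (k : ℕ) (hk : 1 ≤ k) :
    ∃ B : ℝ, 0 < B ∧ Tendsto (fun n : ℕ => PP k n ⌊B * n⌋₊) atTop (𝓝 0) := by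
  have _ := hk
  have hq0 : (0 : ℝ) ≤ 1 - 1 / 2 ^ k := by
    have : (1 : ℝ) / 2 ^ k ≤ 1 := by
      rw [div_le_one (by positivity)]
      exact one_le_pow₀ (by norm_num)
    linarith
  have hq1 : (1 : ℝ) - 1 / 2 ^ k < 1 := by
    have : (0 : ℝ) < 1 / 2 ^ k := by positivity
    linarith
  obtain ⟨b, hb⟩ := exists_pow_lt_of_lt_one (show (0 : ℝ) < 1 / 4 by norm_num) hq1
  refine ⟨(b + 1 : ℕ), by positivity, ?_⟩
  have hb1 : (1 - 1 / 2 ^ k : ℝ) ^ (b + 1) ≤ 1 / 4 := by
    rw [pow_succ]
    nlinarith [pow_nonneg hq0 b]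
  have hlim : Tendsto (fun n : ℕ => ((1 / 2 : ℝ)) ^ n) atTop (𝓝 0) :=
    tendsto_pow_atTop_nhds_zero_of_lt_one (by norm_num) (by norm_num)
  refine squeeze_zero' (Eventually.of_forall fun n => ?_) ?_ hlim
  · unfold PP
    exact ((K_pos k n).pow _) _ sv_nonneg _
  · filter_upwards [eventually_ge_atTop 1] with n hn
    have h1 : ⌊((b + 1 : ℕ) : ℝ) * n⌋₊ = (b + 1) * n := by
      rw [← Nat.cast_mul, Nat.floor_natCast]
    rw [h1]
    refine (first_moment k n _ hn).trans ?_
    rw [pow_mul, ← mul_pow]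
    apply pow_le_pow_left₀ (by positivity)
    linarith

theorem first_unroll (k n t : ℕ) (φ : Fn n) (S : St n) :
    ((K k n) ^ t) φ S = (∑ F : Fin t → Cl k n, φ (S.filter (fun σ => ∀ j, csat (F j) σ)))
      / ((2 * n : ℝ) ^ k) ^ t := by
  induction t generalizing S with
  | zero => simp
  | succ t ih =>
    rw [pow_succ', Module.End.mul_apply, K_apply]
    simp only [ih]
    rw [← Finset.sum_div, div_div, ← pow_succ, ]
    congr 1
    rw [← (Fin.consEquiv (fun _ : Fin (t + 1) => Cl k n)).sum_comp, Fintype.sum_prod_type]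
    refine Finset.sum_congr rfl fun c _ => Finset.sum_congr rfl fun F _ => ?_
    congr 1
    unfold cut
    rw [filter_filter]
    refine filter_congr fun σ _ => ?_
    simp [Fin.forall_fin_succ, Fin.consEquiv]

/-- unrolling: `PP` is the fraction of satisfiable `t`-tuples of clauses -/
theorem PP_eq (k n t : ℕ) :
    PP k n t = ((univ.filter (fun F : Fin t → Cl k n => ∃ σ, ∀ j, csat (F j) σ)).card : ℝ)
      / ((2 * n : ℝ) ^ k) ^ t := by
  unfold PP
  rw [first_unroll]
  congr 1
  unfold sv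
  rw [Finset.card_filter]
  push_cast
  refine Finset.sum_congr rfl fun F _ => ?_
  simp [Finset.filter_nonempty_iff]

end P170
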