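import Vale.Agent.H6.Sat.Kill

/-! Row I1a: interpolation (superadditivity). Rows I1b, I1c are in Interp2.lean. -/

namespace P170
open Finset

/-- impose a clause on the first `n1` variables of `n1+n2` -/
noncomputable def KL (k n1 n2 : ℕ) : Module.End ℝ (Fn (n1 + n2)) where
  toFun φ := fun S =>
    (∑ c : Cl k n1, φ (cut S (fun i => (Fin.castAdd n2 (c i).1, (c i).2)))) / (2 * n1 : ℝ) ^ k
  map_add' φ ψ := by
    funext S
    simp only [Pi.add_apply, Finset.sum_add_distrib, add_div]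
  map_smul' a φ := by
    funext S
    simp only [Pi.smul_apply, smul_eq_mul, RingHom.id_apply, ← Finset.mul_sum, mul_div_assoc]

/-- impose a clause on the last `n2` variables of `n1+n2` -/
noncomputable def KR (k n1 n2 : ℕ) : Module.End ℝ (Fn (n1 + n2)) where
  toFun φ := fun S =>
    (∑ c : Cl k n2, φ (cut S (fun i => (Fin.natAdd n1 (c i).1, (c i).2)))) / (2 * n2 : ℝ) ^ k
  map_add' φ ψ := by
    funext S
    simp only [Pi.add_apply, Finset.sum_add_distrib, add_div]
  map_smul' a φ := by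
    funext S
    simp only [Pi.smul_apply, smul_eq_mul, RingHom.id_apply, ← Finset.mul_sum, mul_div_assoc]

/-- block operator -/
noncomputable def KB (k n1 n2 : ℕ) : Module.End ℝ (Fn (n1 + n2)) :=
  ((n1 : ℝ) / (n1 + n2)) • KL k n1 n2 + ((n2 : ℝ) / (n1 + n2)) • KR k n1 n2

/-- clauses on an embedded set of variables: literals which are frozen -/
noncomputable def interp_fz {n m : ℕ} (e : Fin m → Fin n) (S : St n) : Finset (Lit m) :=
  univ.filter (fun l => ∀ σ ∈ S, σ (e l.1) ≠ l.2)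

theorem interp_kill {n m : ℕ} (k : ℕ) (e : Fin m → Fin n) (hm : 1 ≤ m) (S : St n)
    (hS : S.Nonempty) :
    (∑ c : Cl k m, sv (cut S (fun i => (e (c i).1, (c i).2)))) / (2 * m : ℝ) ^ k
      = 1 - (((interp_fz e S).card : ℝ) / (2 * m)) ^ k := by
  classical
  have hm' : (0 : ℝ) < m := by exact_mod_cast hm
  have h0 : (2 * m : ℝ) ^ k ≠ 0 := by positivity
  have h1 : ∀ c : Cl k m, sv (cut S (fun i => (e (c i).1, (c i).2)))
      = 1 - (if c ∈ Fintype.piFinset (fun _ : Fin k => interp_fz e S) then (1 : ℝ) else 0) := by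
    intro c
    by_cases h3 : c ∈ Fintype.piFinset (fun _ : Fin k => interp_fz e S)
    · rw [if_pos h3]
      have h4 : ¬ (cut S (fun i => (e (c i).1, (c i).2))).Nonempty := by
        rintro ⟨σ, hσ⟩
        unfold cut at hσ
        rw [Finset.mem_filter] at hσ
        obtain ⟨hσS, i, hi⟩ := hσ
        have h5 := (Fintype.mem_piFinset.mp h3) i
        unfold interp_fz at h5
        exact (Finset.mem_filter.mp h5).2 σ hσS hi
      unfold sv
      rw [if_neg h4]; ring
    · rw [if_neg h3]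
      have h4 : (cut S (fun i => (e (c i).1, (c i).2))).Nonempty := by
        rw [Fintype.mem_piFinset] at h3
        push Not at h3
        obtain ⟨i, hi⟩ := h3
        unfold interp_fz at hi
        rw [Finset.mem_filter] at hi
        push Not at hi
        obtain ⟨σ, hσS, hσ⟩ := hi (mem_univ _)
        exact ⟨σ, Finset.mem_filter.mpr ⟨hσS, i, hσ⟩⟩
      unfold sv
      rw [if_pos h4]; ring
  simp only [h1]
  rw [Finset.sum_sub_distrib, Finset.sum_const, card_univ, nsmul_eq_mul, mul_one, card_Cl,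
    Finset.sum_ite_mem, Finset.univ_inter, Finset.sum_const, nsmul_eq_mul, mul_one,
    Fintype.card_piFinset, sub_div, div_self h0]
  congr 1
  simp [div_pow]

theorem interp_card (n1 n2 : ℕ) (S : St (n1 + n2)) :
    (interp_fz (n := n1 + n2) (fun v => v) S).card
      = (interp_fz (n := n1 + n2) (Fin.castAdd n2) S).card
        + (interp_fz (n := n1 + n2) (Fin.natAdd n1) S).card := by
  classical
  unfold interp_fz
  rw [Finset.card_filter, Finset.card_filter, Finset.card_filter, Fintype.sum_prod_type,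
    Fintype.sum_prod_type, Fintype.sum_prod_type, Fin.sum_univ_add]

/-- Row I1a. Kill identity for `KL`, `KR` (`x1^k`, `x2^k`), `x = (n1 x1 + n2 x2)/(n1+n2)`,
convexity of `y^k`. -/
theorem KB_le (k n1 n2 : ℕ) (h1 : 1 ≤ n1) (h2 : 1 ≤ n2) (hk : 1 ≤ k) (S : St (n1 + n2)) :
    KB k n1 n2 sv S ≤ K k (n1 + n2) sv S := by
  have hn1 : (0 : ℝ) < n1 := by exact_mod_cast h1
  have hn2 : (0 : ℝ) < n2 := by exact_mod_cast h2
  by_cases hS : S.Nonempty
  · have eL : KL k n1 n2 sv S
        = 1 - (((interp_fz (n := n1 + n2) (Fin.castAdd n2) S).card : ℝ) / (2 * n1)) ^ k :=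
      interp_kill k (Fin.castAdd n2) h1 S hS
    have eR : KR k n1 n2 sv S
        = 1 - (((interp_fz (n := n1 + n2) (Fin.natAdd n1) S).card : ℝ) / (2 * n2)) ^ k :=
      interp_kill k (Fin.natAdd n1) h2 S hS
    have eK : K k (n1 + n2) sv S
        = 1 - (((interp_fz (n := n1 + n2) (fun v => v) S).card : ℝ)
            / (2 * ((n1 + n2 : ℕ) : ℝ))) ^ k :=
      interp_kill k (fun v => v) (by omega) S hS
    have eB : KB k n1 n2 sv S = (n1 : ℝ) / (n1 + n2) * KL k n1 n2 sv S
        + (n2 : ℝ) / (n1 + n2) * KR k n1 n2 sv S := by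
      unfold KB
      rw [LinearMap.add_apply, LinearMap.smul_apply, LinearMap.smul_apply, Pi.add_apply,
        Pi.smul_apply, Pi.smul_apply, smul_eq_mul, smul_eq_mul]
    rw [eB, eL, eR, eK, interp_card]
    set a : ℝ := ((interp_fz (n := n1 + n2) (Fin.castAdd n2) S).card : ℝ) with ha
    set b : ℝ := ((interp_fz (n := n1 + n2) (Fin.natAdd n1) S).card : ℝ) with hb
    have ha0 : 0 ≤ a := by positivity
    have hb0 : 0 ≤ b := by positivity
    have hx0 : (0 : ℝ) ≤ a / (2 * n1) := by positivity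
    have hy0 : (0 : ℝ) ≤ b / (2 * n2) := by positivity
    have hl0 : (0 : ℝ) ≤ (n1 : ℝ) / (n1 + n2) := by positivity
    have hm0 : (0 : ℝ) ≤ (n2 : ℝ) / (n1 + n2) := by positivity
    have hlm : (n1 : ℝ) / (n1 + n2) + (n2 : ℝ) / (n1 + n2) = 1 := by field_simp
    have hconv := (convexOn_pow (𝕜 := ℝ) k).2 (Set.mem_Ici.mpr hx0) (Set.mem_Ici.mpr hy0)
      hl0 hm0 hlm
    simp only [smul_eq_mul] at hconv
    have e2 : (n1 : ℝ) / (n1 + n2) * (a / (2 * n1)) + (n2 : ℝ) / (n1 + n2) * (b / (2 * n2))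
        = (a + b) / (2 * (n1 + n2)) := by
      field_simp
    rw [e2] at hconv
    push_cast
    rw [← ha, ← hb]
    have e3 : (n1 : ℝ) / (n1 + n2) + (n2 : ℝ) / (n1 + n2) = 1 := by field_simp
    have e4 : (n1 : ℝ) / (n1 + n2) * (1 - (a / (2 * n1)) ^ k)
        + (n2 : ℝ) / (n1 + n2) * (1 - (b / (2 * n2)) ^ k)
        = ((n1 : ℝ) / (n1 + n2) + (n2 : ℝ) / (n1 + n2))
          - ((n1 : ℝ) / (n1 + n2) * (a / (2 * n1)) ^ k
            + (n2 : ℝ) / (n1 + n2) * (b / (2 * n2)) ^ k) := by ring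
    rw [e4, e3]
    linarith
  · rw [Finset.not_nonempty_iff_eq_empty] at hS
    subst hS
    have hcut : ∀ {m : ℕ} (c : Cl k (n1 + n2)), cut (∅ : St (n1 + n2)) c = ∅ := by
      intro m c; rfl
    have hsv : sv (∅ : St (n1 + n2)) = 0 := by simp [sv]
    have e1 : KL k n1 n2 sv ∅ = 0 := by
      show (∑ c : Cl k n1, sv (cut (∅ : St (n1 + n2)) _)) / _ = 0
      simp [cut, sv]
    have e2 : KR k n1 n2 sv ∅ = 0 := by
      show (∑ c : Cl k n2, sv (cut (∅ : St (n1 + n2)) _)) / _ = 0
      simp [cut, sv]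
    have e3 : K k (n1 + n2) sv ∅ = 0 := by
      rw [K_apply]
      simp [cut, sv]
    unfold KB
    rw [LinearMap.add_apply, LinearMap.smul_apply, LinearMap.smul_apply, Pi.add_apply,
        Pi.smul_apply, Pi.smul_apply, e1, e2, e3]
    simp

theorem interp_KL_comm (k n1 n2 : ℕ) : Commute (KL k n1 n2) (K k (n1 + n2)) := by
  unfold Commute SemiconjBy
  refine LinearMap.ext fun φ => ?_
  funext S
  rw [Module.End.mul_apply, Module.End.mul_apply]
  show (∑ c : Cl k n1, (∑ c' : Cl k (n1 + n2), φ (cut (cut S _) c')) / _) / _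
    = (∑ c' : Cl k (n1 + n2), (∑ c : Cl k n1, φ (cut (cut S c') _)) / _) / _
  rw [← Finset.sum_div, ← Finset.sum_div, div_div, div_div, mul_comm ((2 * n1 : ℝ) ^ k),
    Finset.sum_comm]
  congr 1
  refine Finset.sum_congr rfl fun c' _ => Finset.sum_congr rfl fun c _ => ?_
  rw [cut_comm]

theorem interp_KR_comm (k n1 n2 : ℕ) : Commute (KR k n1 n2) (K k (n1 + n2)) := by
  unfold Commute SemiconjBy
  refine LinearMap.ext fun φ => ?_
  funext S
  rw [Module.End.mul_apply, Module.End.mul_apply]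
  show (∑ c : Cl k n2, (∑ c' : Cl k (n1 + n2), φ (cut (cut S _) c')) / _) / _
    = (∑ c' : Cl k (n1 + n2), (∑ c : Cl k n2, φ (cut (cut S c') _)) / _) / _
  rw [← Finset.sum_div, ← Finset.sum_div, div_div, div_div, mul_comm ((2 * n2 : ℝ) ^ k),
    Finset.sum_comm]
  congr 1
  refine Finset.sum_congr rfl fun c' _ => Finset.sum_congr rfl fun c _ => ?_
  rw [cut_comm]

theorem interp_KB_comm (k n1 n2 : ℕ) : Commute (KB k n1 n2) (K k (n1 + n2)) := by
  unfold KB
  exact ((interp_KL_comm k n1 n2).smul_left _).add_left ((interp_KR_comm k n1 n2).smul_left _)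

theorem interp_KB_pos (k n1 n2 : ℕ) : Pos (KB k n1 n2) := by
  have hL : Pos (KL k n1 n2) := fun φ h S =>
    div_nonneg (sum_nonneg fun c _ => h _) (by positivity)
  have hR : Pos (KR k n1 n2) := fun φ h S =>
    div_nonneg (sum_nonneg fun c _ => h _) (by positivity)
  exact (hL.smul (by positivity)).add (hR.smul (by positivity))

/-- Row I1a'. Commutation and positivity, induction on `t`. -/
theorem KB_pow_le (k n1 n2 t : ℕ) (h1 : 1 ≤ n1) (h2 : 1 ≤ n2) (hk : 1 ≤ k) (S : St (n1 + n2)) :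
    ((KB k n1 n2) ^ t) sv S ≤ ((K k (n1 + n2)) ^ t) sv S := by
  induction t generalizing S with
  | zero => exact le_refl _
  | succ t ih =>
    have a1 : ((KB k n1 n2) ^ (t + 1)) sv S ≤ ((KB k n1 n2) ^ t) (K k (n1 + n2) sv) S := by
      rw [pow_succ, Module.End.mul_apply]
      exact ((interp_KB_pos k n1 n2).pow t).mono (KB_le k n1 n2 h1 h2 hk) S
    have a2 : ((KB k n1 n2) ^ t) (K k (n1 + n2) sv) S
        = K k (n1 + n2) (((KB k n1 n2) ^ t) sv) S := by
      rw [← Module.End.mul_apply, ((interp_KB_comm k n1 n2).pow_left t).eq, Module.End.mul_apply]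
    have a3 : K k (n1 + n2) (((KB k n1 n2) ^ t) sv) S
        ≤ K k (n1 + n2) (((K k (n1 + n2)) ^ t) sv) S := (K_pos k (n1 + n2)).mono ih S
    have a4 : ((K k (n1 + n2)) ^ (t + 1)) sv S = K k (n1 + n2) (((K k (n1 + n2)) ^ t) sv) S := by
      rw [pow_succ', Module.End.mul_apply]
    rw [a4]
    exact a1.trans (a2.le.trans a3)

end P170
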