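import Vale.Agent.H6.Sat.Interp

/-! Rows I1b, I1c: interpolation (superadditivity). -/

namespace P170
open Finset

theorem KL_apply (k n1 n2 : ℕ) (φ : Fn (n1 + n2)) (S : St (n1 + n2)) :
    KL k n1 n2 φ S = (∑ c : Cl k n1, φ (cut S (fun i => (Fin.castAdd n2 (c i).1, (c i).2))))
      / (2 * n1 : ℝ) ^ k := rfl

theorem KR_apply (k n1 n2 : ℕ) (φ : Fn (n1 + n2)) (S : St (n1 + n2)) :
    KR k n1 n2 φ S = (∑ c : Cl k n2, φ (cut S (fun i => (Fin.natAdd n1 (c i).1, (c i).2))))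
      / (2 * n2 : ℝ) ^ k := rfl

theorem KL_comm_KR (k n1 n2 : ℕ) : Commute (KL k n1 n2) (KR k n1 n2) := by
  unfold Commute SemiconjBy
  refine LinearMap.ext fun φ => ?_
  funext S
  rw [Module.End.mul_apply, Module.End.mul_apply, KL_apply, KR_apply]
  simp only [KL_apply, KR_apply, Finset.sum_div]
  rw [Finset.sum_comm]
  refine sum_congr rfl fun c _ => sum_congr rfl fun c' _ => ?_
  rw [cut_comm, div_right_comm]

/-- product states -/
def pst {n1 n2 : ℕ} (S1 : St n1) (S2 : St n2) : St (n1 + n2) :=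
  univ.filter (fun σ => (fun a => σ (Fin.castAdd n2 a)) ∈ S1 ∧ (fun b => σ (Fin.natAdd n1 b)) ∈ S2)

theorem mem_pst {n1 n2 : ℕ} {S1 : St n1} {S2 : St n2} {σ : Fin (n1 + n2) → Bool} :
    σ ∈ pst S1 S2 ↔
      (fun a => σ (Fin.castAdd n2 a)) ∈ S1 ∧ (fun b => σ (Fin.natAdd n1 b)) ∈ S2 := by
  simp [pst]

theorem pst_univ (n1 n2 : ℕ) : pst (univ : St n1) (univ : St n2) = univ := by
  ext σ
  simp [mem_pst]

theorem mem_cut' {k n : ℕ} {S : St n} {c : Cl k n} {σ : Fin n → Bool} :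
    σ ∈ cut S c ↔ σ ∈ S ∧ ∃ i, σ (c i).1 = (c i).2 := by
  unfold cut
  rw [mem_filter]
  rfl

theorem cut_pst_left {k n1 n2 : ℕ} (S1 : St n1) (S2 : St n2) (c : Cl k n1) :
    cut (pst S1 S2) (fun i => (Fin.castAdd n2 (c i).1, (c i).2)) = pst (cut S1 c) S2 := by
  ext σ
  rw [mem_cut', mem_pst, mem_pst, mem_cut']
  tauto

theorem cut_pst_right {k n1 n2 : ℕ} (S1 : St n1) (S2 : St n2) (c : Cl k n2) :
    cut (pst S1 S2) (fun i => (Fin.natAdd n1 (c i).1, (c i).2)) = pst S1 (cut S2 c) := by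
  ext σ
  rw [mem_cut', mem_pst, mem_pst, mem_cut']
  tauto

theorem sv_pst {n1 n2 : ℕ} (S1 : St n1) (S2 : St n2) : sv (pst S1 S2) = sv S1 * sv S2 := by
  have h : (pst S1 S2).Nonempty ↔ S1.Nonempty ∧ S2.Nonempty := by
    constructor
    · rintro ⟨σ, hσ⟩
      rw [mem_pst] at hσ
      exact ⟨⟨_, hσ.1⟩, ⟨_, hσ.2⟩⟩
    · rintro ⟨⟨a, ha⟩, ⟨b, hb⟩⟩
      refine ⟨Fin.append a b, ?_⟩
      rw [mem_pst]
      constructor
      · have : (fun i => Fin.append a b (Fin.castAdd n2 i)) = a := by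
          funext i; exact Fin.append_left a b i
        rw [this]; exact ha
      · have : (fun i => Fin.append a b (Fin.natAdd n1 i)) = b := by
          funext i; exact Fin.append_right a b i
        rw [this]; exact hb
  unfold sv
  by_cases h1 : S1.Nonempty
  · by_cases h2 : S2.Nonempty
    · rw [if_pos (h.mpr ⟨h1, h2⟩), if_pos h1, if_pos h2, mul_one]
    · rw [if_neg (fun h' => h2 (h.mp h').2), if_neg h2, mul_zero]
  · rw [if_neg (fun h' => h1 (h.mp h').1), if_neg h1, zero_mul]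

theorem KL_pst {k n1 n2 : ℕ} {ψ : Fn (n1 + n2)} {a : Fn n1} {b : Fn n2}
    (h : ∀ S1 S2, ψ (pst S1 S2) = a S1 * b S2) (S1 : St n1) (S2 : St n2) :
    KL k n1 n2 ψ (pst S1 S2) = K k n1 a S1 * b S2 := by
  rw [KL_apply, K_apply, div_mul_eq_mul_div, Finset.sum_mul]
  congr 1
  refine sum_congr rfl fun c _ => ?_
  rw [cut_pst_left, h]

theorem KR_pst {k n1 n2 : ℕ} {ψ : Fn (n1 + n2)} {a : Fn n1} {b : Fn n2}
    (h : ∀ S1 S2, ψ (pst S1 S2) = a S1 * b S2) (S1 : St n1) (S2 : St n2) :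
    KR k n1 n2 ψ (pst S1 S2) = a S1 * K k n2 b S2 := by
  rw [KR_apply, K_apply, ← mul_div_assoc, Finset.mul_sum]
  congr 1
  refine sum_congr rfl fun c _ => ?_
  rw [cut_pst_right, h]

theorem KR_pow_pst {k n1 n2 : ℕ} (j : ℕ) (S1 : St n1) (S2 : St n2) :
    ((KR k n1 n2) ^ j) sv (pst S1 S2) = sv S1 * ((K k n2) ^ j) sv S2 := by
  induction j generalizing S1 S2 with
  | zero => exact sv_pst S1 S2
  | succ j ih =>
    rw [pow_succ', Module.End.mul_apply, pow_succ', Module.End.mul_apply]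
    exact KR_pst ih S1 S2

theorem KL_KR_pow_pst {k n1 n2 : ℕ} (i j : ℕ) (S1 : St n1) (S2 : St n2) :
    ((KL k n1 n2) ^ i * (KR k n1 n2) ^ j) sv (pst S1 S2)
      = ((K k n1) ^ i) sv S1 * ((K k n2) ^ j) sv S2 := by
  induction i generalizing S1 S2 with
  | zero =>
    rw [pow_zero, one_mul]
    exact KR_pow_pst j S1 S2
  | succ i ih =>
    rw [pow_succ', mul_assoc, Module.End.mul_apply, pow_succ', Module.End.mul_apply]
    exact KL_pst ih S1 S2

/-- Row I1b. `KL`, `KR` commute; on product states they act on the factors. -/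
theorem KL_KR (k n1 n2 i j : ℕ) :
    ((KL k n1 n2) ^ i * (KR k n1 n2) ^ j) sv univ = PP k n1 i * PP k n2 j := by
  rw [← pst_univ n1 n2, KL_KR_pow_pst]
  rfl

/-- Row I1c. Binomial theorem for commuting operators. -/
theorem interp (k n1 n2 t : ℕ) (h1 : 1 ≤ n1) (h2 : 1 ≤ n2) (hk : 1 ≤ k) :
    ∑ i ∈ range (t + 1), (t.choose i : ℝ) * ((n1 : ℝ) / (n1 + n2)) ^ i
        * ((n2 : ℝ) / (n1 + n2)) ^ (t - i) * (PP k n1 i * PP k n2 (t - i))
      ≤ PP k (n1 + n2) t := by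
  have hc : Commute (((n1 : ℝ) / (n1 + n2)) • KL k n1 n2) (((n2 : ℝ) / (n1 + n2)) • KR k n1 n2) :=
    ((KL_comm_KR k n1 n2).smul_left _).smul_right _
  have h := KB_pow_le k n1 n2 t h1 h2 hk univ
  refine le_trans (le_of_eq ?_) h
  unfold KB
  rw [hc.add_pow]
  rw [LinearMap.sum_apply, Finset.sum_apply]
  refine sum_congr rfl fun i _ => ?_
  rw [smul_pow, smul_pow, smul_mul_smul_comm, ← nsmul_eq_mul', LinearMap.smul_apply,
    LinearMap.smul_apply, Pi.smul_apply, Pi.smul_apply, KL_KR, nsmul_eq_mul, smul_eq_mul]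
  ring

end P170
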