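import Vale.Agent.H6.Sat.Ops

/-! Row O2: the kill identity. -/

namespace P170
open Finset

theorem sv_nonneg {n : ℕ} (S : St n) : 0 ≤ sv S := by
  unfold sv; split_ifs <;> norm_num

theorem sv_le_one {n : ℕ} (S : St n) : sv S ≤ 1 := by
  unfold sv; split_ifs <;> norm_num

theorem xx_nonneg {n : ℕ} (S : St n) : 0 ≤ xx S := by
  unfold xx; split_ifs <;> positivity

theorem xx_le_one {n : ℕ} (S : St n) : xx S ≤ 1 := by
  unfold xx
  split_ifs with h
  · apply div_le_one_of_le₀ _ (by positivity)
    have h1 : (Fz S).card ≤ Fintype.card (Lit n) := card_le_univ _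
    have h2 : Fintype.card (Lit n) = 2 * n := by simp [Lit, mul_comm]
    rw [h2] at h1
    exact_mod_cast h1
  · norm_num

/-- `sv` is monotone -/
theorem sv_mono {n : ℕ} {S S' : St n} (h : S ⊆ S') : sv S ≤ sv S' := by
  unfold sv
  split_ifs with h1 h2
  · norm_num
  · exact absurd (h1.mono h) h2
  · norm_num
  · norm_num

theorem cut_empty_iff {m n : ℕ} (S : St n) (c : Cl m n) :
    ¬ (cut S c).Nonempty ↔ ∀ i, c i ∈ Fz S := by
  rw [not_nonempty_iff_eq_empty]
  unfold cut
  rw [filter_eq_empty_iff]
  constructor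
  · intro h i
    unfold Fz
    rw [mem_filter]
    refine ⟨mem_univ _, fun σ hσ heq => ?_⟩
    exact h hσ ⟨i, heq⟩
  · rintro h σ hσ ⟨i, hi⟩
    exact (mem_filter.mp (h i)).2 σ hσ hi

theorem card_kill {m n : ℕ} (S : St n) :
    (univ.filter (fun c : Cl m n => ∀ i, c i ∈ Fz S)).card = (Fz S).card ^ m := by
  have h : univ.filter (fun c : Cl m n => ∀ i, c i ∈ Fz S)
      = Fintype.piFinset (fun _ : Fin m => Fz S) := by
    ext c
    simp [Fintype.mem_piFinset]
  rw [h, Fintype.card_piFinset]
  simp

/-- the kill indicator of a fixed clause: average over the clause. -/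
theorem kill_avg (m n : ℕ) (hn : 1 ≤ n) (hm : 1 ≤ m) (S : St n) :
    (∑ c : Cl m n, (sv S - sv (cut S c))) / (2 * n : ℝ) ^ m = xx S ^ m := by
  unfold xx
  split_ifs with hS
  · rw [div_pow]
    congr 1
    have h : ∀ c : Cl m n, sv S - sv (cut S c) = if (∀ i, c i ∈ Fz S) then (1 : ℝ) else 0 := by
      intro c
      by_cases hc : ∀ i, c i ∈ Fz S
      · rw [if_pos hc]
        have h1 := (cut_empty_iff S c).mpr hc
        unfold sv
        rw [if_pos hS, if_neg h1]
        norm_num
      · rw [if_neg hc]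
        have h1 : (cut S c).Nonempty := by
          by_contra h2
          exact hc ((cut_empty_iff S c).mp h2)
        unfold sv
        rw [if_pos hS, if_pos h1]
        norm_num
    rw [sum_congr rfl fun c _ => h c, ← sum_filter, sum_const, card_kill]
    simp
  · have h1 : S = ∅ := not_nonempty_iff_eq_empty.mp hS
    have h : ∀ c : Cl m n, sv S - sv (cut S c) = 0 := by
      intro c
      subst h1
      unfold sv cut
      simp
    rw [sum_congr rfl fun c _ => h c, sum_const_zero, zero_div, zero_pow (by omega)]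

/-- A clause kills a nonempty `S` iff all its literals are frozen (false in all of `S`). -/
theorem kill (m n : ℕ) (hn : 1 ≤ n) (hm : 1 ≤ m) (S : St n) :
    sv S - K m n sv S = xx S ^ m := by
  rw [← kill_avg m n hn hm S, K_apply, sum_sub_distrib, sub_div]
  congr 1
  have hn' : (0 : ℝ) < n := by exact_mod_cast hn
  have h0 : (2 * n : ℝ) ^ m ≠ 0 := by positivity
  rw [sum_const, card_univ, nsmul_eq_mul, card_Cl]
  field_simp

/-- operator form -/
theorem kill' (m n : ℕ) (hn : 1 ≤ n) (hm : 1 ≤ m) :
    (1 - K m n) sv = fun S => xx S ^ m := by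
  funext S
  exact kill m n hn hm S

end P170
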