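import Vale.Agent.H6.Sat.Rec

/-! Row R4: the total frozen fraction is bounded. -/

namespace P170
open Finset Filter

/-- the constant of the recursion -/
noncomputable def lemA_C1 (k : ℕ) (B : ℝ) : ℝ :=
  2 ^ k * (2 ^ (k + 1) * Real.exp (2 * (k * B))) * (Real.exp (k * B) - 1)
    + (k : ℝ) ^ 2 * B ^ 2 / 2 + 4 * k * B

theorem lemA_C1_nonneg (k : ℕ) {B : ℝ} (hB : 0 ≤ B) : 0 ≤ lemA_C1 k B := by
  unfold lemA_C1
  have h1 : 0 ≤ Real.exp (k * B) - 1 := by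
    have := Real.add_one_le_exp ((k : ℝ) * B)
    have h2 : 0 ≤ (k : ℝ) * B := by positivity
    linarith
  positivity

theorem lemA_Phi_le (k n T j : ℕ) (hn : 1 ≤ n) : Phi k n T j ≤ T := by
  unfold Phi
  have h : ∀ t ∈ range T, ((K k n) ^ t * (K (k - 1) n) ^ j) xx univ ≤ (1 : ℝ) := fun t _ =>
    (((K_mark k n hn).pow t).mul ((K_mark (k - 1) n hn).pow j)).le (fun S => xx_le_one S) univ
  calc _ ≤ ∑ _t ∈ range T, (1 : ℝ) := sum_le_sum h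
    _ = T := by simp

theorem lemA_step (k : ℕ) (hk : 3 ≤ k) (B : ℝ) (hB : 0 ≤ B) (m T : ℕ) (hm : 1 ≤ m)
    (hT : (T : ℝ) ≤ 2 * B * m) (M : ℝ) (hM0 : 0 ≤ M) (hM : ∀ i, Phi k m T i ≤ 2 ^ i * M) (j : ℕ) :
    Phi k (m + 1) T j ≤ 2 ^ j * (lemA_C1 k B + M / 2) := by
  set N : ℝ := 2 ^ (k + 1) * Real.exp (2 * (k * B)) with hN
  set κ : ℝ := k * T / (2 * (m + 1)) with hκ
  have hkB : 0 ≤ (k : ℝ) * B := by positivity
  have hm0 : (0 : ℝ) < m := by exact_mod_cast hm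
  have hN1 : 1 ≤ N := by
    have h1 : (1 : ℝ) ≤ 2 ^ (k + 1) := one_le_pow₀ (by norm_num)
    have h2 : 1 ≤ Real.exp (2 * (k * B)) := Real.one_le_exp (by positivity)
    nlinarith
  have hN0 : 0 < N := by linarith
  set x : ℝ := T / (m + 1) with hx
  have hx0 : 0 ≤ x := by positivity
  have hx1 : x ≤ 2 * B := by
    rw [hx, div_le_iff₀ (by positivity)]
    nlinarith
  have hκx : κ = k * x / 2 := by rw [hκ, hx]; field_simp
  have hκB : κ ≤ k * B := by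
    rw [hκx]
    have : (0 : ℝ) ≤ k := by positivity
    nlinarith
  have hrec := Phi_rec k m T j hk hm N M κ hN1 hM0 hκ hM
  have e1 : (T : ℝ) * (T * ((k : ℝ) ^ 2 / (8 * (m + 1) ^ 2)) + 2 * j * k / (m + 1)) =
      (k : ℝ) ^ 2 * x ^ 2 / 8 + 2 * j * k * x := by
    rw [hx]; field_simp
  rw [e1] at hrec
  have h2j : (1 : ℝ) ≤ 2 ^ j := one_le_pow₀ (by norm_num)
  have hj : (j : ℝ) ≤ 2 ^ j := by exact_mod_cast (Nat.lt_two_pow_self (n := j)).le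
  have a1 : (k : ℝ) ^ 2 * x ^ 2 / 8 ≤ 2 ^ j * ((k : ℝ) ^ 2 * B ^ 2 / 2) := by
    have : x ^ 2 ≤ (2 * B) ^ 2 := by gcongr
    have h3 : (k : ℝ) ^ 2 * x ^ 2 / 8 ≤ (k : ℝ) ^ 2 * B ^ 2 / 2 := by
      have h4 : (k : ℝ) ^ 2 * x ^ 2 ≤ (k : ℝ) ^ 2 * (2 * B) ^ 2 := by gcongr
      nlinarith
    have h5 : 0 ≤ (k : ℝ) ^ 2 * B ^ 2 / 2 := by positivity
    nlinarith
  have a2 : 2 * j * k * x ≤ 2 ^ j * (4 * k * B) := by
    have h6 : (j : ℝ) * (k * x) ≤ 2 ^ j * (k * (2 * B)) := by gcongr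
    nlinarith
  have a3 : Real.exp κ - 1 ≤ Real.exp (k * B) - 1 := by
    have := Real.exp_le_exp.2 hκB
    linarith
  have a4 : Real.exp (2 * κ) ≤ Real.exp (2 * (k * B)) := Real.exp_le_exp.2 (by linarith)
  have hE : 0 ≤ Real.exp (k * B) - 1 := by
    have := Real.one_le_exp hkB
    linarith
  have a5 : 2 ^ k * (N * (Real.exp κ - 1)) ≤ 2 ^ j * (2 ^ k * N * (Real.exp (k * B) - 1)) := by
    have h7 : 2 ^ k * (N * (Real.exp κ - 1)) ≤ 2 ^ k * (N * (Real.exp (k * B) - 1)) := by gcongr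
    have h8 : 0 ≤ 2 ^ k * N * (Real.exp (k * B) - 1) := by positivity
    nlinarith
  have a6 : 2 ^ k * (N⁻¹ * 2 ^ j * Real.exp (2 * κ) * M) ≤ 2 ^ j * (M / 2) := by
    have h9 : 2 ^ k * (N⁻¹ * 2 ^ j * Real.exp (2 * κ) * M) ≤
        2 ^ k * (N⁻¹ * 2 ^ j * Real.exp (2 * (k * B)) * M) := by gcongr
    refine h9.trans (le_of_eq ?_)
    rw [hN]
    have : Real.exp (2 * (k * B)) ≠ 0 := (Real.exp_pos _).ne'
    field_simp
    ring
  unfold lemA_C1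
  rw [← hN]
  calc Phi k (m + 1) T j ≤ _ := hrec
    _ ≤ 2 ^ j * (2 ^ k * N * (Real.exp (k * B) - 1)) + 2 ^ j * (M / 2)
        + (2 ^ j * ((k : ℝ) ^ 2 * B ^ 2 / 2) + 2 ^ j * (4 * k * B)) := by
      rw [mul_add]
      linarith
    _ = _ := by ring

theorem lemA_iter (k : ℕ) (hk : 3 ≤ k) (B : ℝ) (hB : 0 ≤ B) (n : ℕ) (hn : 1 ≤ n) (T : ℕ)
    (hT : (T : ℝ) ≤ B * n) (i : ℕ) :
    ∀ j, Phi k ((n + 1) / 2 + i) T j ≤ 2 ^ j * (2 * lemA_C1 k B + T / 2 ^ i) := by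
  have hC := lemA_C1_nonneg k hB
  have hn2 : 1 ≤ (n + 1) / 2 := by omega
  induction i with
  | zero =>
    intro j
    have h1 := lemA_Phi_le k ((n + 1) / 2) T j hn2
    have h2 : (1 : ℝ) ≤ 2 ^ j := one_le_pow₀ (by norm_num)
    have h3 : (0 : ℝ) ≤ T := by positivity
    rw [pow_zero, div_one, add_zero]
    nlinarith
  | succ i ih =>
    intro j
    have hm : 1 ≤ (n + 1) / 2 + i := by omega
    have hnm : (n : ℝ) ≤ 2 * ((n + 1) / 2 + i : ℕ) := by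
      have : n ≤ 2 * ((n + 1) / 2 + i) := by omega
      exact_mod_cast this
    have hT2 : (T : ℝ) ≤ 2 * B * ((n + 1) / 2 + i : ℕ) := by nlinarith
    have h := lemA_step k hk B hB ((n + 1) / 2 + i) T hm hT2 (2 * lemA_C1 k B + T / 2 ^ i)
      (by positivity) ih j
    rw [← add_assoc]
    refine h.trans (le_of_eq ?_)
    rw [pow_succ 2 i]
    field_simp
    ring

theorem lemA_main (k : ℕ) (hk : 3 ≤ k) (B : ℝ) (hB : 0 ≤ B) (n : ℕ) (hn : 1 ≤ n) (T : ℕ)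
    (hT : (T : ℝ) ≤ B * n) :
    ∑ t ∈ range T, ((K k n) ^ t) xx univ ≤ 2 * lemA_C1 k B + B * n / 2 ^ (n / 2) := by
  have h := lemA_iter k hk B hB n hn T hT (n / 2) 0
  have e : (n + 1) / 2 + n / 2 = n := by omega
  rw [e] at h
  have e2 : Phi k n T 0 = ∑ t ∈ range T, ((K k n) ^ t) xx univ := by
    unfold Phi
    refine sum_congr rfl fun t _ => ?_
    rw [pow_zero, mul_one]
  rw [e2, pow_zero, one_mul] at h
  refine h.trans ?_
  gcongr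

/-- Iterate `Phi_rec` with `N = 2^(k+1) exp (2κ)` from `n/2` (trivial bound `Phi ≤ T`) to `n`:
if `Phi_j(n) ≤ 2^j M` for all `j` then `Phi_j(n+1) ≤ 2^j (C₁ + M/2)`. -/
theorem lemmaA (k : ℕ) (hk : 3 ≤ k) (B : ℝ) (hB : 0 < B) :
    ∃ C : ℝ, 0 < C ∧ ∀ n : ℕ, 1 ≤ n → ∀ T : ℕ, (T : ℝ) ≤ B * n →
      ∑ t ∈ range T, ((K k n) ^ t) xx univ ≤ C := by
  have hC := lemA_C1_nonneg k hB.le
  refine ⟨2 * lemA_C1 k B + 2 * B, by positivity, fun n hn T hT => ?_⟩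
  refine (lemA_main k hk B hB.le n hn T hT).trans ?_
  have h1 : (n : ℝ) ≤ 2 * 2 ^ (n / 2) := by
    have h2 : n / 2 < 2 ^ (n / 2) := Nat.lt_two_pow_self
    have h3 : n ≤ 2 * 2 ^ (n / 2) := by omega
    exact_mod_cast h3
  have h4 : B * n / 2 ^ (n / 2) ≤ 2 * B := by
    rw [div_le_iff₀ (by positivity)]
    nlinarith
  linarith

theorem lemA_pow (q : ℕ) (hq : 6 ≤ q) : 4 * (2 * q + 1) ≤ 2 ^ q := by
  induction q, hq using Nat.le_induction with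
  | base => norm_num
  | succ q hq ih => rw [pow_succ]; omega

/-- the same with `C₁ = 2^k N (e^κ-1) + k²B²/2 + 4kB` small. -/
theorem lemmaA_small (k : ℕ) (hk : 3 ≤ k) :
    ∃ ε : ℝ, 0 < ε ∧ ∀ᶠ n : ℕ in atTop, ∀ T : ℕ, (T : ℝ) ≤ ε * n →
      ∑ t ∈ range T, ((K k n) ^ t) xx univ ≤ 1 / 2 := by
  have hcont : Continuous (lemA_C1 k) := by
    unfold lemA_C1
    fun_prop
  have h0 : lemA_C1 k 0 = 0 := by unfold lemA_C1; simp
  have hev : ∀ᶠ x in nhds (0 : ℝ), lemA_C1 k x < 1 / 8 := by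
    apply hcont.continuousAt.eventually_lt continuousAt_const
    rw [h0]; norm_num
  obtain ⟨δ, hδ, hδ2⟩ := Metric.eventually_nhds_iff.1 hev
  set ε := min (δ / 2) 1 with hε
  have hε0 : 0 < ε := by positivity
  have hε1 : ε ≤ 1 := min_le_right _ _
  have hεC : lemA_C1 k ε < 1 / 8 := by
    apply hδ2
    rw [Real.dist_eq, sub_zero, abs_of_pos hε0]
    have := min_le_left (δ / 2) 1
    linarith
  refine ⟨ε, hε0, ?_⟩
  filter_upwards [eventually_ge_atTop 12] with n hn T hT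
  refine (lemA_main k hk ε hε0.le n (by omega) T hT).trans ?_
  have h1 := lemA_pow (n / 2) (by omega)
  have h2 : 4 * n ≤ 2 ^ (n / 2) := by omega
  have h3 : (4 : ℝ) * n ≤ 2 ^ (n / 2) := by exact_mod_cast h2
  have h4 : ε * n / 2 ^ (n / 2) ≤ 1 / 4 := by
    rw [div_le_iff₀ (by positivity)]
    have : ε * n ≤ 1 * n := by gcongr
    linarith
  linarith

end P170
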