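import Vale.Agent.H6.Sat.Dyadic
import Vale.Agent.H9.Sat.Limit

/-! Existence of the limiting threshold for an array. -/

namespace P170
open Finset Filter Topology

theorem sys_of {P : ℕ → ℕ → ℝ} (hP : Arr P) (hI : Interp P) (hW : Win P)
    (hup : ∃ B : ℝ, 0 < B ∧ Tendsto (fun n : ℕ => P n ⌊B * n⌋₊) atTop (𝓝 0))
    (hlow : ∃ ε : ℝ, 0 < ε ∧ ∀ᶠ n : ℕ in atTop, 1 / 2 ≤ P n ⌊ε * n⌋₊) :
    Limit.Sys (fun n t => if n = 0 then 1 else P n t) where
  nonneg n t := by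
    by_cases h : n = 0
    · simp [h]
    · simpa [h] using hP.nonneg n t
  le_one n t := by
    by_cases h : n = 0
    · simp [h]
    · simpa [h] using hP.le_one n t (Nat.one_le_iff_ne_zero.2 h)
  anti n := by
    by_cases h : n = 0
    · simp only [h, if_true]
      exact antitone_const
    · simp only [h, if_false]
      exact hP.anti n (Nat.one_le_iff_ne_zero.2 h)
  zero n := by
    by_cases h : n = 0
    · simp [h]
    · simpa [h] using hP.zero n (Nat.one_le_iff_ne_zero.2 h)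
  window B hB := by
    obtain ⟨C, hC, h⟩ := hW B hB
    refine ⟨C, hC, fun n a b hn hab hb => ?_⟩
    have hn0 : n ≠ 0 := by omega
    simpa [hn0] using h n hn a b hab hb
  interp n₁ n₂ t h1 h2 := by
    have h10 : n₁ ≠ 0 := by omega
    have h20 : n₂ ≠ 0 := by omega
    have h120 : n₁ + n₂ ≠ 0 := by omega
    simp only [h10, h20, h120, if_false]
    refine le_trans (le_of_eq ?_) (hI n₁ n₂ t h1 h2)
    refine sum_congr rfl fun i _ => ?_
    have hpos : (n₁ : ℝ) + n₂ ≠ 0 := by positivity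
    have e : 1 - (n₁ : ℝ) / (n₁ + n₂) = (n₂ : ℝ) / (n₁ + n₂) := by
      field_simp; ring
    unfold Limit.bw
    rw [e]
  first := by
    obtain ⟨B, hB, h⟩ := hup
    refine ⟨B, hB, h.congr' ?_⟩
    filter_upwards [eventually_ge_atTop 1] with n hn
    have hn0 : n ≠ 0 := by omega
    simp [hn0]
  pos := by
    obtain ⟨B, hB, h⟩ := hlow
    refine ⟨B, hB, ?_⟩
    filter_upwards [h, eventually_ge_atTop 1] with n h hn
    have hn0 : n ≠ 0 := by omega
    simpa [hn0] using h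

theorem threshold_of {P : ℕ → ℕ → ℝ} (hP : Arr P) (hI : Interp P) (hW : Win P)
    (hup : ∃ B : ℝ, 0 < B ∧ Tendsto (fun n : ℕ => P n ⌊B * n⌋₊) atTop (𝓝 0))
    (hlow : ∃ ε : ℝ, 0 < ε ∧ ∀ᶠ n : ℕ in atTop, 1 / 2 ≤ P n ⌊ε * n⌋₊) :
    ∃ α : ℝ, 0 < α ∧
      (∀ c : ℝ, 0 ≤ c → c < α → Tendsto (fun n : ℕ => P n ⌊c * n⌋₊) atTop (𝓝 1)) ∧
      (∀ c : ℝ, α < c → Tendsto (fun n : ℕ => P n ⌊c * n⌋₊) atTop (𝓝 0)) := by
  obtain ⟨α, hα, h1, h0⟩ := (sys_of hP hI hW hup hlow).threshold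
  have hc : ∀ c : ℝ, (fun n : ℕ => if n = 0 then (1 : ℝ) else P n ⌊c * n⌋₊)
      =ᶠ[atTop] (fun n : ℕ => P n ⌊c * n⌋₊) := by
    intro c
    filter_upwards [eventually_ge_atTop 1] with n hn
    have hn0 : n ≠ 0 := by omega
    simp [hn0]
  exact ⟨α, hα, fun c hc0 hlt => (h1 c hc0 hlt).congr' (hc c),
    fun c hlt => (h0 c hlt).congr' (hc c)⟩

end P170
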