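import Vale.Agent.H6.Sat.Window
import Vale.Agent.H6.Sat.Interp2
import Vale.Agent.H6.Sat.Thr
import Vale.Agent.H6.Sat.Conv

/-! Row M: assembly (owner helper6). -/

namespace P170
open Finset Filter Topology

theorem sv_univ (n : ℕ) : sv (univ : St n) = 1 := by
  unfold sv
  rw [if_pos univ_nonempty]

theorem PP_zero (k n : ℕ) : PP k n 0 = 1 := by
  unfold PP
  rw [pow_zero]
  exact sv_univ n

theorem telescope (k n T : ℕ) (hn : 1 ≤ n) (hk : 1 ≤ k) (S : St n) :
    ∑ t ∈ range T, ((K k n) ^ t) (fun S => xx S ^ k) S = sv S - ((K k n) ^ T) sv S := by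
  induction T with
  | zero => simp
  | succ T ih =>
    rw [sum_range_succ, ih, ← kill' k n hn hk, LinearMap.sub_apply, map_sub, Pi.sub_apply,
      pow_succ, Module.End.mul_apply, Module.End.one_apply]
    ring

theorem one_sub_PP_le (k n T : ℕ) (hn : 1 ≤ n) (hk : 1 ≤ k) :
    1 - PP k n T ≤ ∑ t ∈ range T, ((K k n) ^ t) xx univ := by
  have h := telescope k n T hn hk univ
  rw [sv_univ] at h
  unfold PP
  rw [← h]
  refine sum_le_sum fun t _ => ?_
  refine ((K_pos k n).pow t).mono (fun S => ?_) univ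
  calc xx S ^ k ≤ xx S ^ 1 := pow_le_pow_of_le_one (xx_nonneg S) (xx_le_one S) hk
    _ = xx S := pow_one _

theorem low (k : ℕ) (hk : 3 ≤ k) :
    ∃ ε : ℝ, 0 < ε ∧ ∀ᶠ n : ℕ in atTop, 1 / 2 ≤ PP k n ⌊ε * n⌋₊ := by
  obtain ⟨ε, hε, h⟩ := lemmaA_small k hk
  refine ⟨ε, hε, ?_⟩
  filter_upwards [h, eventually_ge_atTop 1] with n hn hn1
  have h1 := hn ⌊ε * n⌋₊ (Nat.floor_le (by positivity))
  have h2 := one_sub_PP_le k n ⌊ε * n⌋₊ hn1 (by omega)
  linarith

theorem arr (k : ℕ) : Arr (PP k) where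
  nonneg n t := PP_nonneg k n t
  le_one n t hn := PP_le_one k n t hn
  anti n hn := PP_antitone k n hn
  zero n _ := PP_zero k n

theorem main (k : ℕ) (hk : 3 ≤ k) : HasLimitingThreshold k := by
  refine transfer k (threshold_of (P := PP k) (arr k) ?_ ?_ (upper k (by omega)) (low k hk))
  · intro n1 n2 t h1 h2
    exact interp k n1 n2 t h1 h2 (by omega)
  · intro B hB
    exact window k hk B hB

end P170
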