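import Vale.Agent.H6.Sat.Defs
import Vale.Agent.H28.P170.Var

/-! Row V4: numeric lower bound for the variance (helper28). -/

namespace P170
open Finset

/-- `∑_{t<T}(2t+1)P_t = ∑_{s,t<T} P_{max(s,t)}`, `P_s P_t = P_max P_min`, so the left side is
`∑_{s,t<T} P_max (1 - P_min)`; restrict to `s,t ∈ [a,b)`. -/
theorem var_lower (P : ℕ → ℝ) (h0 : ∀ t, 0 ≤ P t) (h1 : ∀ t, P t ≤ 1) (hanti : Antitone P)
    (a b : ℕ) (hab : a ≤ b) :
    ((b : ℝ) - a) ^ 2 * P b * (1 - P a)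
      ≤ ∑ t ∈ range b, (2 * t + 1 : ℝ) * P t - (∑ t ∈ range b, P t) ^ 2 := by
  have h := Vale.Agent.H28.P170.window_abs P hanti h0 h1 a b b hab le_rfl
  have e : ∑ t ∈ range b, ((2 * t + 1 : ℕ) : ℝ) * P t = ∑ t ∈ range b, (2 * t + 1 : ℝ) * P t :=
    sum_congr rfl fun t _ => by push_cast; rfl
  rw [e] at h
  rw [mul_assoc]
  exact h

end P170
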