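import Vale.Agent.H6.Sat.Defs

/-! Row O1: positive / Markov operators, `K` is Markov, the `K m n` commute. -/

namespace P170
open Finset

section Abstract
variable {ι : Type*} {A B : Module.End ℝ (ι → ℝ)}

theorem Pos.one : Pos (1 : Module.End ℝ (ι → ℝ)) := fun _ h S => h S

theorem Pos.mul (hA : Pos A) (hB : Pos B) : Pos (A * B) := fun φ h => hA _ (hB φ h)

theorem Pos.pow (hA : Pos A) (t : ℕ) : Pos (A ^ t) := by
  induction t with
  | zero => rw [pow_zero]; exact Pos.one
  | succ t ih => rw [pow_succ]; exact ih.mul hA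

theorem Pos.add (hA : Pos A) (hB : Pos B) : Pos (A + B) := fun φ h S =>
  add_nonneg (hA φ h S) (hB φ h S)

theorem Pos.smul (hA : Pos A) {a : ℝ} (ha : 0 ≤ a) : Pos (a • A) := fun φ h S =>
  mul_nonneg ha (hA φ h S)

theorem Pos.mono (hA : Pos A) {φ ψ : ι → ℝ} (h : ∀ S, φ S ≤ ψ S) (S : ι) : A φ S ≤ A ψ S := by
  have h1 := hA (ψ - φ) (fun S => sub_nonneg.mpr (h S)) S
  rw [map_sub, Pi.sub_apply] at h1
  linarith

theorem Mark.pos (hA : Mark A) : Pos A := hA.1

theorem Mark.const (hA : Mark A) (a : ℝ) : A (fun _ => a) = fun _ => a := by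
  have h : (fun _ : ι => a) = a • (fun _ : ι => (1 : ℝ)) := by
    funext S; simp
  rw [h, map_smul, hA.2]

theorem Mark.one : Mark (1 : Module.End ℝ (ι → ℝ)) := ⟨Pos.one, rfl⟩

theorem Mark.mul (hA : Mark A) (hB : Mark B) : Mark (A * B) :=
  ⟨hA.1.mul hB.1, by rw [Module.End.mul_apply, hB.2, hA.2]⟩

theorem Mark.pow (hA : Mark A) (t : ℕ) : Mark (A ^ t) := by
  induction t with
  | zero => rw [pow_zero]; exact Mark.one
  | succ t ih => rw [pow_succ]; exact ih.mul hA

theorem Mark.le (hA : Mark A) {φ : ι → ℝ} {a : ℝ} (h : ∀ S, φ S ≤ a) (S : ι) : A φ S ≤ a := by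
  have h1 := hA.1.mono (ψ := fun _ => a) h S
  rwa [hA.const a] at h1

theorem Mark.ge (hA : Mark A) {φ : ι → ℝ} {a : ℝ} (h : ∀ S, a ≤ φ S) (S : ι) : a ≤ A φ S := by
  have h1 := hA.1.mono (φ := fun _ => a) h S
  rwa [hA.const a] at h1

end Abstract

theorem K_apply (m n : ℕ) (φ : Fn n) (S : St n) :
    K m n φ S = (∑ c : Cl m n, φ (cut S c)) / (2 * n : ℝ) ^ m := rfl

theorem card_Cl (m n : ℕ) : (Fintype.card (Cl m n) : ℝ) = (2 * n : ℝ) ^ m := by
  simp [Cl, Lit, mul_comm]

theorem K_pos (m n : ℕ) : Pos (K m n) := by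
  intro φ h S
  rw [K_apply]
  exact div_nonneg (sum_nonneg fun c _ => h _) (by positivity)

theorem K_mark (m n : ℕ) (hn : 1 ≤ n) : Mark (K m n) := by
  refine ⟨K_pos m n, ?_⟩
  funext S
  have hn' : (0 : ℝ) < n := by exact_mod_cast hn
  have h0 : (2 * n : ℝ) ^ m ≠ 0 := by positivity
  rw [K_apply, sum_const, card_univ, nsmul_eq_mul, mul_one, card_Cl, div_self h0]

theorem cut_comm {m m' n : ℕ} (S : St n) (c : Cl m n) (c' : Cl m' n) :
    cut (cut S c) c' = cut (cut S c') c := by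
  unfold cut
  rw [filter_filter, filter_filter]
  exact filter_congr fun σ _ => and_comm

theorem K_comm (m m' n : ℕ) : Commute (K m n) (K m' n) := by
  unfold Commute SemiconjBy
  refine LinearMap.ext fun φ => ?_
  funext S
  rw [Module.End.mul_apply, Module.End.mul_apply, K_apply, K_apply]
  simp only [K_apply]
  rw [← Finset.sum_div, ← Finset.sum_div, div_div, div_div, mul_comm ((2 * n : ℝ) ^ m'),
    Finset.sum_comm]
  congr 1
  refine Finset.sum_congr rfl fun c' _ => Finset.sum_congr rfl fun c _ => ?_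
  rw [cut_comm]

theorem p0_pos (k n : ℕ) (hn : 1 ≤ n) : 0 < p0 k n := by
  unfold p0
  positivity

theorem frac_le_one (n : ℕ) : (n : ℝ) / (n + 1) ≤ 1 := by
  rw [div_le_one (by positivity)]
  linarith

theorem p0_le_one (k n : ℕ) : p0 k n ≤ 1 := by
  unfold p0
  exact pow_le_one₀ (by positivity) (frac_le_one n)

theorem p1_nonneg (k n : ℕ) : 0 ≤ p1 k n := by
  unfold p1
  positivity

theorem p1_le (k n : ℕ) : p1 k n ≤ (k : ℝ) / (2 * (n + 1)) := by
  unfold p1
  have h : ((n : ℝ) / (n + 1)) ^ (k - 1) ≤ 1 := pow_le_one₀ (by positivity) (frac_le_one n)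
  have h2 : 0 ≤ (k : ℝ) / (2 * (n + 1)) := by positivity
  nlinarith

/-- `u^k + k (1-u) u^(k-1) ≤ 1` for `0 ≤ u ≤ 1` -/
theorem bern_aux (k : ℕ) (u : ℝ) (h0 : 0 ≤ u) (h1 : u ≤ 1) :
    u ^ k + k * (1 - u) * u ^ (k - 1) ≤ 1 := by
  induction k with
  | zero => simp
  | succ k ih =>
    rcases Nat.eq_zero_or_pos k with hk | hk
    · subst hk; simp
    · have e : k = (k - 1) + 1 := by omega
      have e2 : u ^ k = u * u ^ (k - 1) := by
        conv_lhs => rw [e, pow_succ]
        ring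
      have h3 : 0 ≤ u ^ (k - 1) := by positivity
      have h4 : u ^ (k - 1) ≤ 1 := pow_le_one₀ h0 h1
      have h5 : u ^ k ≤ 1 := pow_le_one₀ h0 h1
      have h6 : 0 ≤ u ^ k := by positivity
      simp only [Nat.add_sub_cancel]
      push_cast
      rw [pow_succ]
      have h7 : u * (u ^ k + k * (1 - u) * u ^ (k - 1)) ≤ u * 1 :=
        mul_le_mul_of_nonneg_left ih h0
      have h8 : u * (k * (1 - u) * u ^ (k - 1)) = k * (1 - u) * u ^ k := by
        rw [e2]; ring
      nlinarith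

theorem p0_add_p1_le (k n : ℕ) : p0 k n + p1 k n ≤ 1 := by
  have h := bern_aux k ((n : ℝ) / (n + 1)) (by positivity) (frac_le_one n)
  have e : 1 - (n : ℝ) / (n + 1) = 1 / (n + 1) := by
    field_simp
    ring
  rw [e] at h
  unfold p0 p1
  have h2 : (k : ℝ) / (2 * (n + 1)) * ((n : ℝ) / (n + 1)) ^ (k - 1)
      ≤ k * (1 / (n + 1)) * ((n : ℝ) / (n + 1)) ^ (k - 1) := by
    gcongr
    rw [mul_one_div]
    apply div_le_div_of_nonneg_left (by positivity) (by positivity)
    have : (0 : ℝ) ≤ n := by positivity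
    linarith
  linarith

theorem p0_inv_le (k n : ℕ) (hn : 1 ≤ n) : (p0 k n)⁻¹ ≤ 2 ^ k := by
  unfold p0
  rw [← inv_pow, inv_div]
  have hn' : (1 : ℝ) ≤ n := by exact_mod_cast hn
  apply pow_le_pow_left₀ (by positivity)
  rw [div_le_iff₀ (by positivity)]
  linarith

theorem AA_mark (k n : ℕ) (hn : 1 ≤ n) : Mark (AA k n) := by
  refine ⟨?_, ?_⟩
  · exact ((K_pos k n).smul (p0_pos k n hn).le).add
      (Pos.one.smul (by linarith [p0_le_one k n]))
  · unfold AA
    rw [LinearMap.add_apply, LinearMap.smul_apply, LinearMap.smul_apply, (K_mark k n hn).2]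
    funext S
    simp

theorem GG_mark (k n : ℕ) (hn : 1 ≤ n) : Mark (GG k n) := by
  refine ⟨?_, ?_⟩
  · exact (((K_pos k n).smul (p0_pos k n hn).le).add
      ((K_pos (k - 1) n).smul (p1_nonneg k n))).add
      (Pos.one.smul (by linarith [p0_add_p1_le k n]))
  · unfold GG
    rw [LinearMap.add_apply, LinearMap.add_apply, LinearMap.smul_apply, LinearMap.smul_apply,
      LinearMap.smul_apply, (K_mark k n hn).2, (K_mark (k - 1) n hn).2]
    funext S
    simp

theorem AA_comm_K (k m n : ℕ) : Commute (AA k n) (K m n) := by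
  unfold AA
  exact ((K_comm k m n).smul_left _).add_left ((Commute.one_left _).smul_left _)

theorem GG_comm_K (k m n : ℕ) : Commute (GG k n) (K m n) := by
  unfold GG
  exact (((K_comm k m n).smul_left _).add_left ((K_comm (k - 1) m n).smul_left _)).add_left
    ((Commute.one_left _).smul_left _)

theorem AA_sub_GG (k n : ℕ) : AA k n - GG k n = p1 k n • (1 - K (k - 1) n) := by
  unfold AA GG
  module

end P170
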