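import Vale.Agent.H6.Sat.Proj

/-! Row P2: lower bounds for `GX` (classify clauses by the positions using the variable of `l`).
(helper29) -/

namespace P170
open Finset

/-- partial sums over clauses on `n+1` variables with `l` set true, `G` already satisfied -/
noncomputable def FF {n : ℕ} (l : Lit (n + 1)) (φ : Fn n) (S : St n) (k : ℕ) (G : St n) : ℝ :=
  ∑ c : Cl k (n + 1), φ (S.filter (fun τ => τ ∈ G ∨ csat c (ins l τ)))

/-- partial sums over clauses on `n` variables, `G` already satisfied -/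
noncomputable def HH {n : ℕ} (φ : Fn n) (S : St n) (k : ℕ) (G : St n) : ℝ :=
  ∑ c : Cl k n, φ (S.filter (fun τ => τ ∈ G ∨ csat c τ))

/-- assignments satisfying a literal -/
def litset {n : ℕ} (l : Lit n) : St n := univ.filter (fun τ => τ l.1 = l.2)

theorem csat_cons {n k : ℕ} (a : Lit n) (c : Cl k n) (σ : Fin n → Bool) :
    csat (Fin.cons a c : Cl (k + 1) n) σ ↔ σ a.1 = a.2 ∨ csat c σ := by
  unfold csat
  rw [Fin.exists_fin_succ]
  simp

theorem sum_Cl_succ {n k : ℕ} (f : Cl (k + 1) n → ℝ) :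
    ∑ c : Cl (k + 1) n, f c = ∑ a : Lit n, ∑ c : Cl k n, f (Fin.cons a c) := by
  rw [← Fintype.sum_prod_type' (f := fun (a : Lit n) (c : Cl k n) => f (Fin.cons a c))]
  exact (Fintype.sum_equiv (Fin.consEquiv (fun _ => Lit n)) _ _ (fun _ => rfl)).symm

theorem HH_zero {n : ℕ} (φ : Fn n) (S G : St n) : HH φ S 0 G = φ (S.filter (fun τ => τ ∈ G)) := by
  unfold HH
  simp [csat]

theorem FF_zero {n : ℕ} (l : Lit (n + 1)) (φ : Fn n) (S G : St n) :
    FF l φ S 0 G = φ (S.filter (fun τ => τ ∈ G)) := by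
  unfold FF
  simp [csat]

theorem HH_succ {n : ℕ} (φ : Fn n) (S G : St n) (k : ℕ) :
    HH φ S (k + 1) G = ∑ a : Lit n, HH φ S k (G ∪ litset a) := by
  unfold HH
  rw [sum_Cl_succ]
  refine sum_congr rfl fun a _ => sum_congr rfl fun c _ => ?_
  congr 1
  refine filter_congr fun τ _ => ?_
  rw [csat_cons, mem_union, litset, mem_filter]
  simp [or_assoc]

theorem ins_self {n : ℕ} (l : Lit (n + 1)) (τ : Fin n → Bool) : ins l τ l.1 = l.2 := by
  unfold ins; simp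

theorem ins_succAbove {n : ℕ} (l : Lit (n + 1)) (τ : Fin n → Bool) (w : Fin n) :
    ins l τ (l.1.succAbove w) = τ w := by
  unfold ins; simp

theorem FF_succ {n : ℕ} (l : Lit (n + 1)) (φ : Fn n) (S G : St n) (k : ℕ) :
    FF l φ S (k + 1) G = (2 * (n + 1) : ℝ) ^ k * φ S + FF l φ S k G
      + ∑ a : Lit n, FF l φ S k (G ∪ litset a) := by
  unfold FF
  rw [sum_Cl_succ]
  have h1 : ∀ g : Lit (n + 1) → ℝ, ∑ a : Lit (n + 1), g a
      = g l + g (l.1, !l.2) + ∑ a : Lit n, g (l.1.succAbove a.1, a.2) := by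
    intro g
    rw [Fintype.sum_prod_type, Fin.sum_univ_succAbove _ l.1, Fintype.sum_prod_type]
    congr 1
    rcases l with ⟨v, b⟩
    cases b <;> simp [add_comm]
  rw [h1]
  congr 1
  · congr 1
    · have h2 : ∀ c : Cl k (n + 1), S.filter
          (fun τ => τ ∈ G ∨ csat (Fin.cons l c : Cl (k + 1) (n + 1)) (ins l τ)) = S := by
        intro c
        refine filter_true_of_mem fun τ _ => Or.inr ?_
        rw [csat_cons]
        exact Or.inl (ins_self l τ)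
      simp only [h2, sum_const, card_univ, nsmul_eq_mul, card_Cl]
      push_cast
      ring
    · refine sum_congr rfl fun c _ => ?_
      congr 1
      refine filter_congr fun τ _ => ?_
      rw [csat_cons, ins_self]
      simp
  · refine sum_congr rfl fun a _ => sum_congr rfl fun c _ => ?_
    congr 1
    refine filter_congr fun τ _ => ?_
    rw [csat_cons, mem_union, litset, mem_filter, ins_succAbove]
    simp [or_assoc]

theorem HH_nonneg {n : ℕ} (φ : Fn n) (h0 : ∀ S, 0 ≤ φ S) (S G : St n) (k : ℕ) :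
    0 ≤ HH φ S k G := sum_nonneg fun _ _ => h0 _

theorem card_Lit (n : ℕ) : (Fintype.card (Lit n) : ℝ) = 2 * n := by
  simp [Lit, mul_comm]

theorem FF_ge1 {n : ℕ} (l : Lit (n + 1)) (φ : Fn n) (h0 : ∀ S, 0 ≤ φ S) (S : St n) (k : ℕ) :
    ∀ G, HH φ S k G + ((2 * (n + 1) : ℝ) ^ k - (2 * n + 1 : ℝ) ^ k) * φ S ≤ FF l φ S k G := by
  induction k with
  | zero => intro G; rw [HH_zero, FF_zero]; simp
  | succ k ih =>
    intro G
    rw [HH_succ, FF_succ]
    have h1 := ih G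
    have h2 := HH_nonneg φ h0 S G k
    have h3 : ∑ a : Lit n, (HH φ S k (G ∪ litset a)
        + ((2 * (n + 1) : ℝ) ^ k - (2 * n + 1 : ℝ) ^ k) * φ S)
        ≤ ∑ a : Lit n, FF l φ S k (G ∪ litset a) := sum_le_sum fun a _ => ih _
    rw [sum_add_distrib, sum_const, card_univ, nsmul_eq_mul, card_Lit] at h3
    rw [pow_succ, pow_succ]
    nlinarith [h1, h2, h3]

theorem FF_ge2 {n : ℕ} (l : Lit (n + 1)) (φ : Fn n) (h0 : ∀ S, 0 ≤ φ S) (S : St n) (k : ℕ) :
    ∀ G, HH φ S (k + 1) G + (k + 1) * HH φ S k G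
      + ((2 * (n + 1) : ℝ) ^ (k + 1) - (2 * n + 1 : ℝ) ^ (k + 1)) * φ S
      ≤ FF l φ S (k + 1) G := by
  induction k with
  | zero =>
    intro G
    rw [HH_succ, FF_succ, FF_zero, HH_zero]
    simp only [HH_zero, FF_zero]
    simp
    ring_nf
    linarith
  | succ k ih =>
    intro G
    rw [FF_succ]
    have h1 := FF_ge1 l φ h0 S (k + 1) G
    have h3 : ∑ a : Lit n, (HH φ S (k + 1) (G ∪ litset a) + (k + 1) * HH φ S k (G ∪ litset a)
        + ((2 * (n + 1) : ℝ) ^ (k + 1) - (2 * n + 1 : ℝ) ^ (k + 1)) * φ S)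
        ≤ ∑ a : Lit n, FF l φ S (k + 1) (G ∪ litset a) := sum_le_sum fun a _ => ih _
    rw [sum_add_distrib, sum_add_distrib, sum_const, card_univ, nsmul_eq_mul, card_Lit,
      ← mul_sum, ← HH_succ φ S G (k + 1), ← HH_succ φ S G k] at h3
    rw [pow_succ _ (k + 1), pow_succ _ (k + 1)]
    push_cast
    nlinarith [h1, h3]

theorem HH_empty {n : ℕ} (φ : Fn n) (S : St n) (k : ℕ) (hn : 1 ≤ n) :
    HH φ S k ∅ = (2 * n : ℝ) ^ k * K k n φ S := by
  have hn' : (0 : ℝ) < n := by exact_mod_cast hn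
  rw [K_apply, mul_div_cancel₀ _ (by positivity)]
  unfold HH cut
  simp

theorem FF_empty {n : ℕ} (l : Lit (n + 1)) (φ : Fn n) (S : St n) (k : ℕ) :
    GX k l φ S = FF l φ S k ∅ / (2 * (n + 1) : ℝ) ^ k := by
  unfold FF GX
  simp

theorem taylor2 (a h : ℝ) (ha : 0 ≤ a) (hh : 0 ≤ h) (hah : a + h ≤ 1) (k : ℕ) :
    (a + h) ^ (k + 1) - a ^ (k + 1) - (k + 1) * h * a ^ k ≤ h ^ 2 * ((k + 1) * k / 2) := by
  induction k with
  | zero => simp
  | succ k ih =>
    have ha1 : a ≤ 1 := by linarith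
    have h1 : a ^ k ≤ 1 := pow_le_one₀ ha ha1
    have e : (a + h) ^ (k + 1 + 1) - a ^ (k + 1 + 1) - ((k + 1 : ℕ) + 1) * h * a ^ (k + 1)
        = (a + h) * ((a + h) ^ (k + 1) - a ^ (k + 1) - (k + 1) * h * a ^ k)
          + (k + 1) * h ^ 2 * a ^ k := by
      push_cast
      ring
    rw [e]
    have h2 : (a + h) * ((a + h) ^ (k + 1) - a ^ (k + 1) - (k + 1) * h * a ^ k)
        ≤ (a + h) * (h ^ 2 * ((k + 1) * k / 2)) := mul_le_mul_of_nonneg_left ih (by positivity)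
    have h3 : (a + h) * (h ^ 2 * ((k + 1) * k / 2)) ≤ 1 * (h ^ 2 * ((k + 1) * k / 2)) :=
      mul_le_mul_of_nonneg_right hah (by positivity)
    have h4 : (k + 1) * h ^ 2 * a ^ k ≤ (k + 1) * h ^ 2 * 1 :=
      mul_le_mul_of_nonneg_left h1 (by positivity)
    push_cast
    nlinarith [h2, h3, h4]

/-- Sum over clauses `c` (i) avoiding the variable of `l` (`(2n)^k` of them, in bijection with
`Cl k n`), (ii) with exactly one position equal to the negation of `l`, the others avoiding the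
variable (`k (2n)^(k-1)`, reduced clause in `Cl (k-1) n`), (iii) containing `l`
(`(2n+2)^k-(2n+1)^k`, nothing happens); the rest has at most
`(2n+1)^k-(2n)^k-k(2n)^(k-1) ≤ k^2/2 (2n+2)^(k-2)` clauses. -/
theorem GX_ge {n : ℕ} (k : ℕ) (hk : 2 ≤ k) (hn : 1 ≤ n) (l : Lit (n + 1)) (φ : Fn n)
    (h0 : ∀ S, 0 ≤ φ S) (h1 : ∀ S, φ S ≤ 1) (S : St n) :
    GG k n φ S - (k : ℝ) ^ 2 / (8 * (n + 1) ^ 2) ≤ GX k l φ S := by
  obtain ⟨k, rfl⟩ : ∃ k', k = k' + 1 := ⟨k - 1, by omega⟩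
  have hn' : (0 : ℝ) < n := by exact_mod_cast hn
  have hF := FF_ge2 l φ h0 S k ∅
  rw [HH_empty φ S _ hn, HH_empty φ S _ hn] at hF
  rw [FF_empty]
  have hD : (0 : ℝ) < (2 * (n + 1)) ^ (k + 1) := by positivity
  have hG : GG (k + 1) n φ S = p0 (k + 1) n * K (k + 1) n φ S + p1 (k + 1) n * K k n φ S
      + (1 - p0 (k + 1) n - p1 (k + 1) n) * φ S := by
    unfold GG
    simp
  have hp0 : p0 (k + 1) n = (2 * n : ℝ) ^ (k + 1) / (2 * (n + 1)) ^ (k + 1) := by
    unfold p0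
    rw [← div_pow]
    congr 1
    field_simp
  have hp1 : p1 (k + 1) n = (k + 1) * (2 * n : ℝ) ^ k / (2 * (n + 1)) ^ (k + 1) := by
    unfold p1
    rw [Nat.add_sub_cancel, div_pow, mul_pow, mul_pow, pow_succ, pow_succ]
    push_cast
    field_simp
  have ht := taylor2 ((n : ℝ) / (n + 1)) (1 / (2 * (n + 1))) (by positivity) (by positivity)
    (by
      rw [div_add_div _ _ (by positivity) (by positivity), div_le_one (by positivity)]
      nlinarith) k
  have e1 : ((n : ℝ) / (n + 1) + 1 / (2 * (n + 1))) = (2 * n + 1) / (2 * (n + 1)) := by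
    field_simp
  rw [e1] at ht
  have e2 : (n : ℝ) / (n + 1) ^ (k + 1) = (n : ℝ) / (n + 1) ^ (k + 1) := rfl
  have hq : ((2 * n + 1 : ℝ) / (2 * (n + 1))) ^ (k + 1) - p0 (k + 1) n - p1 (k + 1) n
      ≤ ((k : ℝ) + 1) ^ 2 / (8 * (n + 1) ^ 2) := by
    have e3 : p0 (k + 1) n = ((n : ℝ) / (n + 1)) ^ (k + 1) := rfl
    have e4 : p1 (k + 1) n = (k + 1) * (1 / (2 * (n + 1))) * ((n : ℝ) / (n + 1)) ^ k := by
      unfold p1
      rw [Nat.add_sub_cancel]
      push_cast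
      ring
    rw [e3, e4]
    refine ht.trans ?_
    rw [div_pow, one_pow, le_div_iff₀ (by positivity)]
    have : (1 : ℝ) / (2 * (n + 1)) ^ 2 * ((k + 1) * k / 2) * (8 * (n + 1) ^ 2) = (k + 1) * k := by
      field_simp
      ring
    rw [this]
    nlinarith
  have hmain : p0 (k + 1) n * K (k + 1) n φ S + p1 (k + 1) n * K k n φ S
      + (1 - ((2 * n + 1 : ℝ) / (2 * (n + 1))) ^ (k + 1)) * φ S
      ≤ FF l φ S (k + 1) ∅ / (2 * (n + 1)) ^ (k + 1) := by
    rw [le_div_iff₀ hD]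
    refine le_trans (le_of_eq ?_) hF
    rw [hp0, hp1, div_pow]
    field_simp
  rw [hG]
  push_cast
  have hφ0 := h0 S
  have hφ1 := h1 S
  have hfin : (((2 * n + 1 : ℝ) / (2 * (n + 1))) ^ (k + 1) - p0 (k + 1) n - p1 (k + 1) n) * φ S
      ≤ ((k : ℝ) + 1) ^ 2 / (8 * (n + 1) ^ 2) := by
    have hE : 0 ≤ ((k : ℝ) + 1) ^ 2 / (8 * (n + 1) ^ 2) := by positivity
    calc _ ≤ (((k : ℝ) + 1) ^ 2 / (8 * (n + 1) ^ 2)) * φ S := mul_le_mul_of_nonneg_right hq hφ0
      _ ≤ (((k : ℝ) + 1) ^ 2 / (8 * (n + 1) ^ 2)) * 1 := mul_le_mul_of_nonneg_left hφ1 hE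
      _ = _ := mul_one _
  nlinarith [hmain, hfin]

/-- only type (i): `GX m l φ ≥ (n/(n+1))^m K m n φ ≥ K m n φ - m/(n+1)`. -/
theorem GX_ge' {n : ℕ} (m : ℕ) (hn : 1 ≤ n) (l : Lit (n + 1)) (φ : Fn n)
    (h0 : ∀ S, 0 ≤ φ S) (h1 : ∀ S, φ S ≤ 1) (S : St n) :
    K m n φ S - (m : ℝ) / (n + 1) ≤ GX m l φ S := by
  have hn' : (0 : ℝ) < n := by exact_mod_cast hn
  have hF := FF_ge1 l φ h0 S m ∅
  rw [HH_empty φ S _ hn] at hF
  rw [FF_empty]
  have hD : (0 : ℝ) < (2 * (n + 1)) ^ m := by positivity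
  have hK0 : 0 ≤ K m n φ S := K_pos m n φ h0 S
  have hK1 : K m n φ S ≤ 1 := (K_mark m n hn).le h1 S
  have hφ0 := h0 S
  have hle : (2 * n + 1 : ℝ) ^ m ≤ (2 * (n + 1)) ^ m :=
    pow_le_pow_left₀ (by positivity) (by linarith) m
  have h2 : (2 * n : ℝ) ^ m * K m n φ S ≤ FF l φ S m ∅ := by
    nlinarith [mul_nonneg (sub_nonneg.mpr hle) hφ0]
  have h3 : ((n : ℝ) / (n + 1)) ^ m * K m n φ S ≤ FF l φ S m ∅ / (2 * (n + 1)) ^ m := by
    rw [le_div_iff₀ hD]
    refine le_trans (le_of_eq ?_) h2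
    rw [div_pow, mul_pow, mul_pow]
    field_simp
  have h4 : 1 - (m : ℝ) / (n + 1) ≤ ((n : ℝ) / (n + 1)) ^ m := by
    have h5 := one_add_mul_le_pow (a := -(1 / ((n : ℝ) + 1))) (by
      have : (1 : ℝ) / (n + 1) ≤ 1 := by
        rw [div_le_one (by positivity)]; linarith
      linarith) m
    have e : (n : ℝ) / (n + 1) = 1 + -(1 / ((n : ℝ) + 1)) := by
      field_simp
      ring
    rw [e]
    refine le_trans (le_of_eq ?_) h5
    ring
  have h6 : 0 ≤ (m : ℝ) / (n + 1) := by positivity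
  nlinarith [mul_le_mul_of_nonneg_right h4 hK0]

end P170
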