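import Vale.Agent.H6.Sat.Kill

/-! Row P3: dropping the clauses which use a given variable only helps satisfiability. -/

namespace P170
open Finset

/-- a clause on `n` variables as a clause on `n + 1` variables avoiding the variable `v` -/
def embC {n m : ℕ} (v : Fin (n + 1)) (c : Cl m n) : Cl m (n + 1) :=
  fun i => (v.succAbove (c i).1, (c i).2)

theorem embC_inj {n m : ℕ} (v : Fin (n + 1)) : Function.Injective (embC (m := m) v) := by
  intro c c' h
  funext i
  have h1 := congrFun h i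
  simp only [embC, Prod.mk.injEq] at h1
  exact Prod.ext (Fin.succAbove_right_injective h1.1) h1.2

/-- a random `m`-clause on `n+1` variables avoids the variable `v` with probability
`(n/(n+1))^m` and is then a uniform `m`-clause on the other `n` variables. -/
theorem avg_avoid {n : ℕ} (m : ℕ) (hn : 1 ≤ n) (v : Fin (n + 1)) (f : Cl m (n + 1) → ℝ)
    (g : Cl m n → ℝ) (a : ℝ) (h1 : ∀ c, f (embC v c) ≤ g c) (h2 : ∀ c, f c ≤ a) :
    (∑ c : Cl m (n + 1), f c) / (2 * (n + 1 : ℕ) : ℝ) ^ m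
      ≤ ((n : ℝ) / (n + 1)) ^ m * ((∑ c : Cl m n, g c) / (2 * n : ℝ) ^ m)
        + (1 - ((n : ℝ) / (n + 1)) ^ m) * a := by
  classical
  have hn' : (0 : ℝ) < n := by exact_mod_cast hn
  set I : Finset (Cl m (n + 1)) := univ.image (embC v) with hI
  have hcard : (I.card : ℝ) = (2 * n : ℝ) ^ m := by
    rw [hI, card_image_of_injective _ (embC_inj v), card_univ, card_Cl]
  have hcard2 : ((Iᶜ).card : ℝ) = (2 * (n + 1 : ℕ) : ℝ) ^ m - (2 * n : ℝ) ^ m := by
    rw [card_compl, Nat.cast_sub (card_le_univ _), hcard, card_Cl]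
  have h3 : ∑ c : Cl m (n + 1), f c = ∑ c ∈ I, f c + ∑ c ∈ Iᶜ, f c :=
    (sum_add_sum_compl I f).symm
  have h4 : ∑ c ∈ I, f c ≤ ∑ c : Cl m n, g c := by
    rw [hI, sum_image (fun x _ y _ h => embC_inj v h)]
    exact sum_le_sum fun c _ => h1 c
  have h5 : ∑ c ∈ Iᶜ, f c ≤ ((2 * (n + 1 : ℕ) : ℝ) ^ m - (2 * n : ℝ) ^ m) * a := by
    rw [← hcard2, ← nsmul_eq_mul]
    exact sum_le_card_nsmul _ _ _ fun c _ => h2 c
  have h6 : (0 : ℝ) < (2 * (n + 1 : ℕ) : ℝ) ^ m := by positivity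
  rw [h3, div_le_iff₀ h6]
  have h7 : ((n : ℝ) / (n + 1)) ^ m * (2 * (n + 1 : ℕ) : ℝ) ^ m = (2 * n : ℝ) ^ m := by
    rw [← mul_pow]
    congr 1
    push_cast
    field_simp
  have h8 : (((n : ℝ) / (n + 1)) ^ m * ((∑ c : Cl m n, g c) / (2 * n : ℝ) ^ m)
        + (1 - ((n : ℝ) / (n + 1)) ^ m) * a) * (2 * (n + 1 : ℕ) : ℝ) ^ m
      = ∑ c : Cl m n, g c + ((2 * (n + 1 : ℕ) : ℝ) ^ m - (2 * n : ℝ) ^ m) * a := by
    have h9 : (2 * n : ℝ) ^ m ≠ 0 := by positivity
    calc _ = (((n : ℝ) / (n + 1)) ^ m * (2 * (n + 1 : ℕ) : ℝ) ^ m)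
            * ((∑ c : Cl m n, g c) / (2 * n : ℝ) ^ m)
          + ((2 * (n + 1 : ℕ) : ℝ) ^ m
            - ((n : ℝ) / (n + 1)) ^ m * (2 * (n + 1 : ℕ) : ℝ) ^ m) * a := by ring
      _ = _ := by
        rw [h7, mul_div_cancel₀ _ h9]
  rw [h8]
  linarith

/-- `S` projects into `A` -/
def RelS {n : ℕ} (v : Fin (n + 1)) (S : St (n + 1)) (A : St n) : Prop :=
  ∀ σ ∈ S, v.removeNth σ ∈ A

/-- domination of functions -/
def DomS {n : ℕ} (v : Fin (n + 1)) (f : Fn (n + 1)) (g : Fn n) : Prop :=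
  ∀ S A, RelS v S A → f S ≤ g A

theorem DomS.sv {n : ℕ} (v : Fin (n + 1)) : DomS v (P170.sv : Fn (n + 1)) P170.sv := by
  intro S A h
  unfold P170.sv
  by_cases hS : S.Nonempty
  · obtain ⟨σ, hσ⟩ := hS
    have hA : A.Nonempty := ⟨_, h σ hσ⟩
    rw [if_pos hA]
    split_ifs <;> norm_num
  · rw [if_neg hS]
    split_ifs <;> norm_num

theorem DomS.step {n : ℕ} (m : ℕ) (hn : 1 ≤ n) (v : Fin (n + 1)) {f : Fn (n + 1)} {g : Fn n}
    (h : DomS v f g) : DomS v (K m (n + 1) f) (AA m n g) := by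
  intro S A hSA
  have h1 := avg_avoid m hn v (fun c => f (cut S c)) (fun c => g (cut A c)) (g A)
    (fun c => h _ _ (by
      intro σ hσ
      rw [cut, mem_filter] at hσ ⊢
      obtain ⟨h1, i, hi⟩ := hσ
      exact ⟨hSA σ h1, i, hi⟩))
    (fun c => h _ _ (by
      intro σ hσ
      rw [cut, mem_filter] at hσ
      exact hSA σ hσ.1))
  have h2 : AA m n g A = p0 m n * K m n g A + (1 - p0 m n) * g A := by
    simp [AA]
  rw [K_apply, h2, K_apply]
  exact h1

theorem DomS.iter {n : ℕ} (k t j : ℕ) (hn : 1 ≤ n) (v : Fin (n + 1)) :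
    DomS v (((K k (n + 1)) ^ t * (K (k - 1) (n + 1)) ^ j) P170.sv)
      (((AA k n) ^ t * (AA (k - 1) n) ^ j) P170.sv) := by
  induction t with
  | zero =>
    rw [pow_zero, pow_zero, one_mul, one_mul]
    induction j with
    | zero => rw [pow_zero, pow_zero]; exact DomS.sv v
    | succ j ih =>
      rw [pow_succ', pow_succ', Module.End.mul_apply, Module.End.mul_apply]
      exact DomS.step _ hn v ih
  | succ t ih =>
    rw [pow_succ', pow_succ', mul_assoc, mul_assoc, Module.End.mul_apply, Module.End.mul_apply]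
    exact DomS.step _ hn v ih

theorem AA_pow_le {n : ℕ} (m j : ℕ) (hn : 1 ≤ n) (S : St n) :
    ((AA m n) ^ j) P170.sv S ≤ ((K m n) ^ j) P170.sv S + j * (1 - p0 m n) := by
  induction j generalizing S with
  | zero => simp
  | succ j ih =>
    have hM := AA_mark m n hn
    have hK := (K_mark m n hn).pow j
    rw [pow_succ', pow_succ', Module.End.mul_apply, Module.End.mul_apply]
    have h1 : AA m n (((AA m n) ^ j) P170.sv) S
        ≤ AA m n (((K m n) ^ j) P170.sv + fun _ => j * (1 - p0 m n)) S :=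
      hM.1.mono ih S
    rw [map_add, hM.const, Pi.add_apply] at h1
    have h2 : AA m n (((K m n) ^ j) P170.sv) S
        = p0 m n * K m n (((K m n) ^ j) P170.sv) S + (1 - p0 m n) * ((K m n) ^ j) P170.sv S := by
      simp [AA]
    have h3 : ((K m n) ^ j) P170.sv S ≤ 1 := hK.le (fun S => by
      unfold P170.sv; split_ifs <;> norm_num) S
    have h4 : 0 ≤ K m n (((K m n) ^ j) P170.sv) S := by
      refine K_pos m n _ (fun S => hK.1 _ (fun S => ?_) S) S
      unfold P170.sv; split_ifs <;> norm_num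
    have h5 := p0_le_one m n
    have h6 : (1 - p0 m n) * ((K m n) ^ j) P170.sv S ≤ (1 - p0 m n) * 1 :=
      mul_le_mul_of_nonneg_left h3 (by linarith)
    have h7 : p0 m n * K m n (((K m n) ^ j) P170.sv) S ≤ K m n (((K m n) ^ j) P170.sv) S := by
      nlinarith
    push_cast
    linarith

theorem one_sub_p0_le (m n : ℕ) : 1 - p0 m n ≤ m / (n + 1) := by
  unfold p0
  have h1 : (-2 : ℝ) ≤ -1 / (n + 1) := by
    rw [le_div_iff₀ (by positivity)]
    have : (0 : ℝ) ≤ n := by positivity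
    linarith
  have h2 := one_add_mul_le_pow h1 m
  have h3 : 1 + -1 / ((n : ℝ) + 1) = n / (n + 1) := by
    field_simp
    ring
  rw [h3] at h2
  have h4 : (m : ℝ) * (-1 / (n + 1)) = -(m / (n + 1)) := by ring
  rw [h4] at h2
  linarith

/-- Induct on the number of steps with the relation `R S A := ∀ σ ∈ S, v.removeNth σ ∈ A`:
if `f S ≤ g A` whenever `R S A` then `K m (n+1) f S ≤ p K m n g A + (1-p) g A`, `p=(n/(n+1))^m`. -/
theorem dom (k n t j : ℕ) (hn : 1 ≤ n) (hk : 1 ≤ k) :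
    ((K k (n + 1)) ^ t * (K (k - 1) (n + 1)) ^ j) sv univ
      ≤ ((AA k n) ^ t * (K (k - 1) n) ^ j) sv univ + j * k / (n + 1) := by
  have h1 := DomS.iter k t j hn (0 : Fin (n + 1)) univ univ (fun σ _ => mem_univ _)
  refine h1.trans ?_
  rw [Module.End.mul_apply, Module.End.mul_apply]
  have hM := (AA_mark k n hn).pow t
  have h2 : ((AA k n) ^ t) (((AA (k - 1) n) ^ j) sv) univ
      ≤ ((AA k n) ^ t) (((K (k - 1) n) ^ j) sv + fun _ => j * (1 - p0 (k - 1) n)) univ :=
    hM.1.mono (fun S => AA_pow_le (k - 1) j hn S) univ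
  rw [map_add, hM.const, Pi.add_apply] at h2
  refine h2.trans ?_
  have h3 : (j : ℝ) * (1 - p0 (k - 1) n) ≤ j * k / (n + 1) := by
    rw [mul_div_assoc]
    apply mul_le_mul_of_nonneg_left _ (by positivity)
    refine (one_sub_p0_le (k - 1) n).trans ?_
    apply div_le_div_of_nonneg_right _ (by positivity)
    exact_mod_cast Nat.sub_le k 1
  linarith

end P170
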