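import Vale.Agent.H6.Sat.PCount
import Vale.Agent.H6.Sat.PDom

/-! Row P4: assembly of the frozen-fraction inequality. -/

namespace P170
open Finset

/-- iterate an almost-domination between Markov operators -/
theorem iter_ge {ι : Type*} (X Y : Module.End ℝ (ι → ℝ)) (hX : Mark X) (hY : Mark Y) (ε : ℝ)
    (h : ∀ φ : ι → ℝ, (∀ S, 0 ≤ φ S) → (∀ S, φ S ≤ 1) → ∀ S, Y φ S - ε ≤ X φ S)
    (φ : ι → ℝ) (h0 : ∀ S, 0 ≤ φ S) (h1 : ∀ S, φ S ≤ 1) (t : ℕ) (S : ι) :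
    (Y ^ t) φ S - t * ε ≤ (X ^ t) φ S := by
  induction t generalizing S with
  | zero => simp
  | succ t ih =>
    rw [pow_succ', pow_succ', Module.End.mul_apply, Module.End.mul_apply]
    have h2 : X (fun S => (Y ^ t) φ S - t * ε) S ≤ X ((X ^ t) φ) S := hX.1.mono ih S
    have h3 : X (fun S => (Y ^ t) φ S - t * ε) S = X ((Y ^ t) φ) S - t * ε := by
      have e : (fun S => (Y ^ t) φ S - t * ε) = (Y ^ t) φ - (fun _ => t * ε) := rfl
      rw [e, map_sub, Pi.sub_apply, hX.const]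
    have h4 := h ((Y ^ t) φ) ((hY.1.pow t) φ h0) ((hY.pow t).le h1) S
    push_cast
    linarith

/-- from `GX_ge`, `GX_ge'`: by induction on `t` (and `j`),
`(GX k l)^t (GX (k-1) l)^j sv ≥ (GG k n)^t (K (k-1) n)^j sv - t k^2/(8(n+1)^2) - j k/(n+1)`. -/
theorem GX_pow_ge {n : ℕ} (k t j : ℕ) (hk : 2 ≤ k) (hn : 1 ≤ n) (l : Lit (n + 1)) (S : St n) :
    ((GG k n) ^ t * (K (k - 1) n) ^ j) sv S - t * ((k : ℝ) ^ 2 / (8 * (n + 1) ^ 2))
      - j * k / (n + 1) ≤ ((GX k l) ^ t * (GX (k - 1) l) ^ j) sv S := by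
  rw [Module.End.mul_apply, Module.End.mul_apply]
  have hKm := K_mark (k - 1) n hn
  have hc : ((k - 1 : ℕ) : ℝ) / (n + 1) ≤ k / (n + 1) := by
    apply div_le_div_of_nonneg_right _ (by positivity)
    exact_mod_cast Nat.sub_le k 1
  -- step 1
  have s1 : ∀ S, ((K (k - 1) n) ^ j) sv S - j * (((k - 1 : ℕ) : ℝ) / (n + 1))
      ≤ ((GX (k - 1) l) ^ j) sv S := fun S =>
    iter_ge (GX (k - 1) l) (K (k - 1) n) (GX_mark _ _) hKm _
      (fun φ h0 h1 S => GX_ge' (k - 1) hn l φ h0 h1 S) sv sv_nonneg sv_le_one j S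
  -- step 2
  have s2 := iter_ge (GX k l) (GG k n) (GX_mark _ _) (GG_mark k n hn) _
    (fun φ h0 h1 S => GX_ge k hk hn l φ h0 h1 S) (((K (k - 1) n) ^ j) sv)
    ((hKm.1.pow j) _ sv_nonneg) ((hKm.pow j).le sv_le_one) t S
  have s3 : ((GX k l) ^ t) (fun S => ((K (k - 1) n) ^ j) sv S
      - j * (((k - 1 : ℕ) : ℝ) / (n + 1))) S ≤ ((GX k l) ^ t) (((GX (k - 1) l) ^ j) sv) S :=
    ((GX_mark k l).1.pow t).mono s1 S
  have s4 : ((GX k l) ^ t) (fun S => ((K (k - 1) n) ^ j) sv S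
      - j * (((k - 1 : ℕ) : ℝ) / (n + 1))) S
      = ((GX k l) ^ t) (((K (k - 1) n) ^ j) sv) S - j * (((k - 1 : ℕ) : ℝ) / (n + 1)) := by
    have e : (fun S => ((K (k - 1) n) ^ j) sv S - j * (((k - 1 : ℕ) : ℝ) / (n + 1)))
        = ((K (k - 1) n) ^ j) sv - (fun _ => j * (((k - 1 : ℕ) : ℝ) / (n + 1))) := rfl
    rw [e, map_sub, Pi.sub_apply, ((GX_mark k l).pow t).const]
  have s5 : (j : ℝ) * (((k - 1 : ℕ) : ℝ) / (n + 1)) ≤ j * k / (n + 1) := by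
    rw [mul_div_assoc]
    exact mul_le_mul_of_nonneg_left hc (by positivity)
  linarith

theorem frozen_le (k n t j : ℕ) (hk : 2 ≤ k) (hn : 1 ≤ n) :
    ((K k (n + 1)) ^ t * (K (k - 1) (n + 1)) ^ j) xx univ
      ≤ ((AA k n) ^ t - (GG k n) ^ t) (((K (k - 1) n) ^ j) sv) univ
        + t * ((k : ℝ) ^ 2 / (8 * (n + 1) ^ 2)) + 2 * j * k / (n + 1) := by
  rw [frozen_eq, div_le_iff₀ (by positivity)]
  have hd := dom k n t j hn (by omega)
  have h1 : ∀ l : Lit (n + 1), ((K k (n + 1)) ^ t * (K (k - 1) (n + 1)) ^ j) sv univ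
      - ((GX k l) ^ t * (GX (k - 1) l) ^ j) sv (univ : St n)
      ≤ ((AA k n) ^ t - (GG k n) ^ t) (((K (k - 1) n) ^ j) sv) univ
        + t * ((k : ℝ) ^ 2 / (8 * (n + 1) ^ 2)) + 2 * j * k / (n + 1) := by
    intro l
    have h2 := GX_pow_ge k t j hk hn l univ
    rw [LinearMap.sub_apply, Pi.sub_apply]
    rw [Module.End.mul_apply] at h2 hd
    have h3 : 2 * (j : ℝ) * k / (n + 1) = j * k / (n + 1) + j * k / (n + 1) := by ring
    have h4 : ((AA k n) ^ t * (K (k - 1) n) ^ j) sv univ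
      = ((AA k n) ^ t) (((K (k - 1) n) ^ j) sv) univ := rfl
    rw [h4] at hd
    have h5 : ((K k (n + 1)) ^ t * (K (k - 1) (n + 1)) ^ j) sv univ
      = ((K k (n + 1)) ^ t) (((K (k - 1) (n + 1)) ^ j) sv) univ := rfl
    rw [h5, h3]
    linarith
  refine (sum_le_sum fun l _ => h1 l).trans (le_of_eq ?_)
  rw [sum_const, card_univ, nsmul_eq_mul]
  have h6 : (Fintype.card (Lit (n + 1)) : ℝ) = 2 * (n + 1) := by
    simp [Lit, mul_comm]
  rw [h6]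
  ring

end P170
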