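import Vale.Agent.H6.Sat.Kill

/-! Row P1: setting a literal true (projection to `n` variables).  (helper29) -/

namespace P170
open Finset

/-- extend `τ` by making the literal `l` true -/
def ins {n : ℕ} (l : Lit (n + 1)) (τ : Fin n → Bool) : Fin (n + 1) → Bool :=
  l.1.insertNth l.2 τ

/-- solutions with `l` true, as a set of assignments of the other variables -/
def proj {n : ℕ} (l : Lit (n + 1)) (S : St (n + 1)) : St n :=
  univ.filter (fun τ => ins l τ ∈ S)

/-- operator seen after setting `l` true -/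
noncomputable def GX {n : ℕ} (m : ℕ) (l : Lit (n + 1)) : Module.End ℝ (Fn n) where
  toFun φ := fun S =>
    (∑ c : Cl m (n + 1), φ (S.filter (fun τ => csat c (ins l τ)))) / (2 * (n + 1) : ℝ) ^ m
  map_add' φ ψ := by
    funext S
    simp only [Pi.add_apply, Finset.sum_add_distrib, add_div]
  map_smul' a φ := by
    funext S
    simp only [Pi.smul_apply, smul_eq_mul, RingHom.id_apply, ← Finset.mul_sum, mul_div_assoc]

theorem GX_apply {n : ℕ} (m : ℕ) (l : Lit (n + 1)) (φ : Fn n) (S : St n) :
    GX m l φ S = (∑ c : Cl m (n + 1), φ (S.filter (fun τ => csat c (ins l τ))))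
      / (2 * (n + 1) : ℝ) ^ m := rfl

theorem proj_univ {n : ℕ} (l : Lit (n + 1)) : proj l univ = univ := by
  unfold proj
  simp

theorem proj_nonempty_iff {n : ℕ} (l : Lit (n + 1)) (S : St (n + 1)) :
    (proj l S).Nonempty ↔ l ∉ Fz S := by
  unfold proj Fz
  rw [mem_filter]
  constructor
  · rintro ⟨τ, hτ⟩ ⟨_, h⟩
    refine h _ (mem_filter.mp hτ).2 ?_
    unfold ins
    simp
  · intro h
    have h2 : ¬ ∀ σ ∈ S, σ l.1 ≠ l.2 := fun h3 => h ⟨mem_univ _, h3⟩
    push Not at h2
    obtain ⟨σ, hσ, e⟩ := h2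
    refine ⟨l.1.removeNth σ, ?_⟩
    rw [mem_filter]
    refine ⟨mem_univ _, ?_⟩
    unfold ins
    rw [← e, Fin.insertNth_self_removeNth]
    exact hσ

theorem xx_eq {n : ℕ} (S : St (n + 1)) :
    xx S = (∑ l : Lit (n + 1), (sv S - sv (proj l S))) / (2 * (n + 1)) := by
  unfold xx
  split_ifs with hS
  · push_cast
    congr 1
    have h : ∀ l : Lit (n + 1), sv S - sv (proj l S) = if l ∈ Fz S then (1 : ℝ) else 0 := by
      intro l
      by_cases hl : l ∈ Fz S
      · have h1 : ¬ (proj l S).Nonempty := fun h2 => (proj_nonempty_iff l S).mp h2 hl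
        rw [if_pos hl]
        unfold sv
        rw [if_pos hS, if_neg h1]
        norm_num
      · have h1 : (proj l S).Nonempty := (proj_nonempty_iff l S).mpr hl
        rw [if_neg hl]
        unfold sv
        rw [if_pos hS, if_pos h1]
        norm_num
    rw [sum_congr rfl fun l _ => h l, sum_ite_mem, univ_inter, sum_const, nsmul_eq_mul, mul_one]
  · have h1 : S = ∅ := not_nonempty_iff_eq_empty.mp hS
    have h : ∀ l : Lit (n + 1), sv S - sv (proj l S) = 0 := by
      intro l
      subst h1
      unfold sv proj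
      simp
    rw [sum_congr rfl fun l _ => h l, sum_const_zero, zero_div]

theorem GX_mark {n : ℕ} (m : ℕ) (l : Lit (n + 1)) : Mark (GX m l) := by
  refine ⟨fun φ h S => ?_, ?_⟩
  · rw [GX_apply]
    exact div_nonneg (sum_nonneg fun c _ => h _) (by positivity)
  · funext S
    have h0 : (2 * (n + 1) : ℝ) ^ m ≠ 0 := by positivity
    rw [GX_apply, sum_const, card_univ, nsmul_eq_mul, mul_one, card_Cl]
    push_cast
    exact div_self h0

theorem inter {n : ℕ} (m : ℕ) (l : Lit (n + 1)) (φ : Fn n) :
    K m (n + 1) (fun S => φ (proj l S)) = fun S => GX m l φ (proj l S) := by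
  funext S
  rw [K_apply, GX_apply]
  push_cast
  congr 1
  refine sum_congr rfl fun c _ => ?_
  congr 1
  unfold proj cut
  rw [filter_filter]
  refine filter_congr fun τ _ => ?_
  rw [mem_filter]

theorem inter_pow {n : ℕ} (m t : ℕ) (l : Lit (n + 1)) (φ : Fn n) :
    ((K m (n + 1)) ^ t) (fun S => φ (proj l S)) = fun S => ((GX m l) ^ t) φ (proj l S) := by
  induction t generalizing φ with
  | zero => rfl
  | succ t ih =>
    rw [pow_succ, pow_succ, Module.End.mul_apply, Module.End.mul_apply, inter, ih]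

/-- the frozen fraction as an average of differences -/
theorem frozen_eq (k n t j : ℕ) :
    ((K k (n + 1)) ^ t * (K (k - 1) (n + 1)) ^ j) xx univ
      = (∑ l : Lit (n + 1), (((K k (n + 1)) ^ t * (K (k - 1) (n + 1)) ^ j) sv univ
          - ((GX k l) ^ t * (GX (k - 1) l) ^ j) sv (univ : St n))) / (2 * (n + 1)) := by
  have hx : (xx : Fn (n + 1)) = ((2 * (n + 1) : ℝ)⁻¹) •
      ∑ l : Lit (n + 1), ((sv : Fn (n + 1)) - fun S => sv (proj l S)) := by
    funext S
    rw [xx_eq, Pi.smul_apply, Finset.sum_apply, smul_eq_mul, div_eq_inv_mul]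
    rfl
  rw [hx, map_smul, map_sum, Pi.smul_apply, Finset.sum_apply, smul_eq_mul, div_eq_inv_mul]
  congr 1
  refine sum_congr rfl fun l _ => ?_
  rw [map_sub, Pi.sub_apply]
  congr 1
  rw [Module.End.mul_apply, inter_pow, inter_pow, Module.End.mul_apply]
  simp only [proj_univ]

end P170
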