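import Vale.Agent.H6.Sat.PFinal
import Vale.Agent.H6.Sat.Abs

/-! Row R3: the recursion for `Phi`. -/

namespace P170
open Finset

/-- `x^{k-1} ≤ N x^k + x/N` for `0 ≤ x ≤ 1`, `N ≥ 1`, `k ≥ 3`. -/
theorem rec_pow_le {x N : ℝ} (hx0 : 0 ≤ x) (hx1 : x ≤ 1) (hN : 1 ≤ N) {k : ℕ} (hk : 3 ≤ k) :
    x ^ (k - 1) ≤ N * x ^ k + N⁻¹ * x := by
  have hN0 : 0 < N := by linarith
  obtain ⟨m, rfl⟩ : ∃ m, k = m + 3 := ⟨k - 3, by omega⟩
  have e1 : m + 3 - 1 = m + 2 := rfl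
  rw [e1]
  by_cases h : N⁻¹ ≤ x
  · have h1 : 1 ≤ N * x := by
      calc (1 : ℝ) = N * N⁻¹ := (mul_inv_cancel₀ hN0.ne').symm
        _ ≤ N * x := mul_le_mul_of_nonneg_left h hN0.le
    have h2 : x ^ (m + 2) ≤ N * x ^ (m + 3) := by
      have h3 : N * x ^ (m + 3) = (N * x) * x ^ (m + 2) := by ring
      rw [h3]
      exact le_mul_of_one_le_left (by positivity) h1
    have h4 : 0 ≤ N⁻¹ * x := by positivity
    linarith
  · push Not at h
    have h1 : x ^ (m + 2) ≤ x ^ 2 := pow_le_pow_of_le_one hx0 hx1 (by omega)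
    have h2 : x ^ 2 ≤ N⁻¹ * x := by
      rw [sq]
      exact mul_le_mul_of_nonneg_right h.le hx0
    have h3 : 0 ≤ N * x ^ (m + 3) := by positivity
    linarith

/-- telescoping `∑_{v<T} K^v (1-K) = 1 - K^T` -/
theorem rec_geom {R : Type*} [Ring R] (a : R) (T : ℕ) :
    ∑ v ∈ range T, a ^ v * (1 - a) = 1 - a ^ T := by
  induction T with
  | zero => simp
  | succ T ih =>
    rw [sum_range_succ, ih, mul_sub, mul_one, pow_succ]
    abel

/-- `∑_{v<T} (K_k^v K_{k-1}^m x^k)(univ) ≤ 1` -/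
theorem rec_tele (k n T m : ℕ) (hk : 1 ≤ k) (hn : 1 ≤ n) :
    ∑ v ∈ range T, ((K k n) ^ v * (K (k - 1) n) ^ m) (fun S : St n => xx S ^ k) univ ≤ 1 := by
  have hK := K_mark k n hn
  have hK' := K_mark (k - 1) n hn
  have hcomm : ∀ v : ℕ, (K k n) ^ v * (K (k - 1) n) ^ m = (K (k - 1) n) ^ m * (K k n) ^ v :=
    fun v => ((K_comm k (k - 1) n).pow_pow v m).eq
  have h1 : ∀ v ∈ range T, ((K k n) ^ v * (K (k - 1) n) ^ m) (fun S : St n => xx S ^ k) univ
      = ((K (k - 1) n) ^ m * ((K k n) ^ v * (1 - K k n))) sv univ := by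
    intro v _
    rw [← kill' k n hn hk, hcomm v, ← mul_assoc, Module.End.mul_apply _ (1 - K k n)]
  rw [sum_congr rfl h1]
  have h2 : ∑ v ∈ range T, ((K (k - 1) n) ^ m * ((K k n) ^ v * (1 - K k n))) sv univ
      = ((K (k - 1) n) ^ m * (1 - (K k n) ^ T)) sv univ := by
    rw [← rec_geom (K k n) T, mul_sum, LinearMap.sum_apply, Finset.sum_apply]
  rw [h2, mul_sub, mul_one, LinearMap.sub_apply, Pi.sub_apply]
  have h3 : ((K (k - 1) n) ^ m) sv univ ≤ 1 := (hK'.pow m).le (fun S => sv_le_one S) univ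
  have h4 : 0 ≤ ((K (k - 1) n) ^ m * (K k n) ^ T) sv univ :=
    ((hK'.pow m).mul (hK.pow T)).pos sv (fun S => sv_nonneg S) univ
  linarith

/-- `∑_{u<T} (A^u ψ_m)(univ) ≤ 2^k (N + N⁻¹ 2^m M)` -/
theorem rec_psi (k n T m : ℕ) (hk : 3 ≤ k) (hn : 1 ≤ n) (N M : ℝ) (hN : 1 ≤ N)
    (hM0 : 0 ≤ M) (hM : ∀ i, Phi k n T i ≤ 2 ^ i * M) :
    ∑ u ∈ range T, ((AA k n) ^ u) (((K (k - 1) n) ^ m) (fun S : St n => xx S ^ (k - 1))) univ
      ≤ 2 ^ k * (N + N⁻¹ * (2 ^ m * M)) := by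
  have hN0 : 0 < N := by linarith
  have hK := K_mark k n hn
  have hK' := K_mark (k - 1) n hn
  have hψ : ∀ S, 0 ≤ (((K (k - 1) n) ^ m) (fun S : St n => xx S ^ (k - 1))) S :=
    fun S => (hK'.pow m).pos _ (fun S => pow_nonneg (xx_nonneg S) _) S
  have h1 := negbin (AA k n) (K k n) (p0 k n) (p0_pos k n hn) (p0_le_one k n) hK.pos rfl
    (((K (k - 1) n) ^ m) (fun S : St n => xx S ^ (k - 1))) hψ T univ
  have h2 : ∑ v ∈ range T, ((K k n) ^ v) (((K (k - 1) n) ^ m)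
      (fun S : St n => xx S ^ (k - 1))) univ ≤ N + N⁻¹ * (2 ^ m * M) := by
    have h3 : ∀ v ∈ range T, ((K k n) ^ v) (((K (k - 1) n) ^ m)
        (fun S : St n => xx S ^ (k - 1))) univ
        ≤ N * (((K k n) ^ v * (K (k - 1) n) ^ m) (fun S : St n => xx S ^ k) univ)
          + N⁻¹ * (((K k n) ^ v * (K (k - 1) n) ^ m) xx univ) := by
      intro v _
      have hP := ((hK.pow v).mul (hK'.pow m)).pos
      have h4 := hP.mono (φ := fun S : St n => xx S ^ (k - 1))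
        (ψ := N • (fun S : St n => xx S ^ k) + N⁻¹ • (xx : Fn n)) (fun S => by
          show xx S ^ (k - 1) ≤ N * xx S ^ k + N⁻¹ * xx S
          exact rec_pow_le (xx_nonneg S) (xx_le_one S) hN hk) univ
      rw [map_add, map_smul, map_smul, Pi.add_apply, Pi.smul_apply, Pi.smul_apply, smul_eq_mul,
        smul_eq_mul] at h4
      exact h4
    refine (sum_le_sum h3).trans ?_
    rw [sum_add_distrib, ← mul_sum, ← mul_sum]
    have h5 := rec_tele k n T m (by omega) hn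
    have h6 := hM m
    unfold Phi at h6
    have h7 := mul_le_mul_of_nonneg_left h5 hN0.le
    have h8 := mul_le_mul_of_nonneg_left h6 (inv_pos.mpr hN0).le
    linarith
  have h9 : 0 ≤ N + N⁻¹ * (2 ^ m * M) := by positivity
  calc ∑ u ∈ range T, ((AA k n) ^ u) (((K (k - 1) n) ^ m) (fun S : St n => xx S ^ (k - 1))) univ
      ≤ (p0 k n)⁻¹ * ∑ v ∈ range T, ((K k n) ^ v) (((K (k - 1) n) ^ m)
        (fun S : St n => xx S ^ (k - 1))) univ := h1
    _ ≤ (p0 k n)⁻¹ * (N + N⁻¹ * (2 ^ m * M)) :=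
        mul_le_mul_of_nonneg_left h2 (inv_pos.mpr (p0_pos k n hn)).le
    _ ≤ 2 ^ k * (N + N⁻¹ * (2 ^ m * M)) := mul_le_mul_of_nonneg_right (p0_inv_le k n hn) h9

theorem rec_exp_sum (y : ℝ) (hy : 0 ≤ y) (T : ℕ) :
    ∑ i ∈ range T, y ^ (i + 1) / ((i + 1).factorial : ℝ) ≤ Real.exp y - 1 := by
  have h := Real.sum_le_exp_of_nonneg hy (T + 1)
  rw [sum_range_succ'] at h
  simp only [pow_zero, Nat.factorial_zero, Nat.cast_one, div_one] at h
  linarith

theorem rec_choose (k n T t i : ℕ) (κ : ℝ) (hκ : κ = k * T / (2 * (n + 1))) (ht : t ≤ T) :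
    (t.choose (i + 1) : ℝ) * (p1 k n) ^ (i + 1) ≤ κ ^ (i + 1) / ((i + 1).factorial : ℝ) := by
  have h1 : (t.choose (i + 1) : ℝ) ≤ (t : ℝ) ^ (i + 1) / ((i + 1).factorial : ℝ) :=
    Nat.choose_le_pow_div (i + 1) t
  have h2 : (t : ℝ) ^ (i + 1) ≤ (T : ℝ) ^ (i + 1) :=
    pow_le_pow_left₀ (Nat.cast_nonneg _) (by exact_mod_cast ht) _
  have hp := p1_nonneg k n
  have h3 : (p1 k n) ^ (i + 1) ≤ ((k : ℝ) / (2 * (n + 1))) ^ (i + 1) :=
    pow_le_pow_left₀ hp (p1_le k n) _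
  have h4 : (0 : ℝ) < ((i + 1).factorial : ℝ) := by positivity
  calc (t.choose (i + 1) : ℝ) * (p1 k n) ^ (i + 1)
      ≤ ((T : ℝ) ^ (i + 1) / ((i + 1).factorial : ℝ)) * ((k : ℝ) / (2 * (n + 1))) ^ (i + 1) := by
        apply mul_le_mul _ h3 (by positivity) (by positivity)
        exact h1.trans (div_le_div_of_nonneg_right h2 h4.le)
    _ = κ ^ (i + 1) / ((i + 1).factorial : ℝ) := by
        rw [hκ, div_mul_eq_mul_div, ← mul_pow]
        congr 2
        ring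

/-- `frozen_le` + `diff_bound` (with `u = K'^j sv`, `(1-K')u = K'^j x^{k-1}`) + `negbin` +
`x^{k-1} ≤ N x^k + x/N` + telescoping `∑_{v<T} K^v x^k = sv - K^T sv`,
`C(t,i+1) p1^{i+1} ≤ κ^{i+1}/(i+1)!`. -/
theorem Phi_rec (k n T j : ℕ) (hk : 3 ≤ k) (hn : 1 ≤ n) (N M κ : ℝ) (hN : 1 ≤ N) (hM0 : 0 ≤ M)
    (hκ : κ = k * T / (2 * (n + 1))) (hM : ∀ i, Phi k n T i ≤ 2 ^ i * M) :
    Phi k (n + 1) T j ≤ 2 ^ k * (N * (Real.exp κ - 1) + N⁻¹ * 2 ^ j * Real.exp (2 * κ) * M)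
      + T * (T * ((k : ℝ) ^ 2 / (8 * (n + 1) ^ 2)) + 2 * j * k / (n + 1)) := by
  have hN0 : 0 < N := by linarith
  have hκ0 : 0 ≤ κ := by rw [hκ]; positivity
  have hK' := K_mark (k - 1) n hn
  have hA := AA_mark k n hn
  have hG := GG_mark k n hn
  -- notation
  set ψ : ℕ → Fn n := fun m => ((K (k - 1) n) ^ m) (fun S : St n => xx S ^ (k - 1)) with hψdef
  have hψ0 : ∀ m S, 0 ≤ ψ m S := fun m S =>
    (hK'.pow m).pos _ (fun S => pow_nonneg (xx_nonneg S) _) S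
  have hone : (1 - K (k - 1) n) (((K (k - 1) n) ^ j) sv) = ψ j := by
    have hc : (1 - K (k - 1) n) * (K (k - 1) n) ^ j = (K (k - 1) n) ^ j * (1 - K (k - 1) n) := by
      rw [sub_mul, mul_sub, one_mul, mul_one, ← pow_succ, ← pow_succ']
    rw [← Module.End.mul_apply, hc, Module.End.mul_apply, kill' (k - 1) n hn (by omega)]
  -- main bound for each `t`
  have hAψ : ∀ u m, 0 ≤ ((AA k n) ^ u) (ψ m) univ := fun u m =>
    (hA.pow u).pos _ (hψ0 m) univ
  have hmain : ∀ t ∈ range T, ((AA k n) ^ t - (GG k n) ^ t) (((K (k - 1) n) ^ j) sv) univ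
      ≤ ∑ i ∈ range T, if i < t then κ ^ (i + 1) / ((i + 1).factorial : ℝ)
          * ((AA k n) ^ (t - 1 - i)) (ψ (i + j)) univ else 0 := by
    intro t ht
    have htT : t ≤ T := (mem_range.mp ht).le
    have h1 := diff_bound (AA k n) (GG k n) (K (k - 1) n) (p1 k n) (p1_nonneg k n) hA.pos hG.pos
      hK'.pos (AA_sub_GG k n) (AA_comm_K k (k - 1) n) (((K (k - 1) n) ^ j) sv)
      (by rw [hone]; exact hψ0 j) t univ
    refine h1.trans ?_
    rw [hone]
    have h2 : ∑ i ∈ range t, (t.choose (i + 1) : ℝ) * (p1 k n) ^ (i + 1)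
          * (((AA k n) ^ (t - 1 - i) * (K (k - 1) n) ^ i) (ψ j)) univ
        = ∑ i ∈ range T, if i < t then (t.choose (i + 1) : ℝ) * (p1 k n) ^ (i + 1)
          * (((AA k n) ^ (t - 1 - i) * (K (k - 1) n) ^ i) (ψ j)) univ else 0 := by
      rw [← sum_filter]
      apply sum_congr _ fun _ _ => rfl
      ext i
      simp only [mem_range, mem_filter]
      omega
    rw [h2]
    refine sum_le_sum fun i _ => ?_
    split_ifs with hi
    · have h3 : ((AA k n) ^ (t - 1 - i) * (K (k - 1) n) ^ i) (ψ j)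
          = ((AA k n) ^ (t - 1 - i)) (ψ (i + j)) := by
        rw [Module.End.mul_apply]
        congr 1
        rw [hψdef]
        simp only
        rw [← Module.End.mul_apply, ← pow_add]
      rw [h3]
      exact mul_le_mul_of_nonneg_right (rec_choose k n T t i κ hκ htT) (hAψ _ _)
    · exact le_rfl
  -- summing over `t`
  have hsum : ∑ t ∈ range T, ((AA k n) ^ t - (GG k n) ^ t) (((K (k - 1) n) ^ j) sv) univ
      ≤ ∑ i ∈ range T, κ ^ (i + 1) / ((i + 1).factorial : ℝ)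
          * (2 ^ k * (N + N⁻¹ * (2 ^ (i + j) * M))) := by
    refine (sum_le_sum hmain).trans ?_
    rw [sum_comm]
    refine sum_le_sum fun i _ => ?_
    have h1 : ∑ t ∈ range T, (if i < t then κ ^ (i + 1) / ((i + 1).factorial : ℝ)
          * ((AA k n) ^ (t - 1 - i)) (ψ (i + j)) univ else 0)
        = κ ^ (i + 1) / ((i + 1).factorial : ℝ)
          * ∑ t ∈ (range T).filter (fun t => i < t),
            ((AA k n) ^ (t - 1 - i)) (ψ (i + j)) univ := by
      rw [← sum_filter, mul_sum]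
    rw [h1]
    apply mul_le_mul_of_nonneg_left _ (by positivity)
    have h2 : ∑ t ∈ (range T).filter (fun t => i < t),
        ((AA k n) ^ (t - 1 - i)) (ψ (i + j)) univ
        ≤ ∑ u ∈ range T, ((AA k n) ^ u) (ψ (i + j)) univ := by
      have hinj : Set.InjOn (fun t => t - 1 - i) ((range T).filter (fun t => i < t) : Set ℕ) := by
        intro a ha b hb hab
        simp only [coe_filter, Set.mem_ofPred_eq] at ha hb
        simp only at hab
        omega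
      rw [← sum_image (f := fun u => ((AA k n) ^ u) (ψ (i + j)) univ) hinj]
      apply sum_le_sum_of_subset_of_nonneg
      · intro u hu
        rw [mem_image] at hu
        obtain ⟨t, ht, rfl⟩ := hu
        rw [mem_filter, mem_range] at ht
        rw [mem_range]
        omega
      · intro u _ _
        exact hAψ u _
    exact h2.trans (rec_psi k n T (i + j) hk hn N M hN hM0 hM)
  have hexp : ∑ i ∈ range T, κ ^ (i + 1) / ((i + 1).factorial : ℝ)
          * (2 ^ k * (N + N⁻¹ * (2 ^ (i + j) * M)))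
      ≤ 2 ^ k * (N * (Real.exp κ - 1) + N⁻¹ * 2 ^ j * Real.exp (2 * κ) * M) := by
    have h1 : ∀ i ∈ range T, κ ^ (i + 1) / ((i + 1).factorial : ℝ)
          * (2 ^ k * (N + N⁻¹ * (2 ^ (i + j) * M)))
        = 2 ^ k * N * (κ ^ (i + 1) / ((i + 1).factorial : ℝ))
          + 2 ^ k * (N⁻¹ * 2 ^ j * M) / 2 * ((2 * κ) ^ (i + 1) / ((i + 1).factorial : ℝ)) := by
      intro i _
      rw [mul_pow, pow_add 2 i j, pow_succ 2 i]
      ring
    rw [sum_congr rfl h1, sum_add_distrib, ← mul_sum, ← mul_sum]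
    have h2 := rec_exp_sum κ hκ0 T
    have h3 := rec_exp_sum (2 * κ) (by linarith) T
    have h4 : 0 ≤ Real.exp (2 * κ) := (Real.exp_pos _).le
    have h5 : 0 ≤ 2 ^ k * (N⁻¹ * 2 ^ j * M) / 2 := by positivity
    have h6 := mul_le_mul_of_nonneg_left h2 (by positivity : (0 : ℝ) ≤ 2 ^ k * N)
    have h7 : 2 ^ k * (N⁻¹ * 2 ^ j * M) / 2
          * ∑ i ∈ range T, (2 * κ) ^ (i + 1) / ((i + 1).factorial : ℝ)
        ≤ 2 ^ k * (N⁻¹ * 2 ^ j * M) * Real.exp (2 * κ) := by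
      calc 2 ^ k * (N⁻¹ * 2 ^ j * M) / 2
            * ∑ i ∈ range T, (2 * κ) ^ (i + 1) / ((i + 1).factorial : ℝ)
          ≤ 2 ^ k * (N⁻¹ * 2 ^ j * M) / 2 * (2 * Real.exp (2 * κ)) :=
            mul_le_mul_of_nonneg_left (by linarith) h5
        _ = 2 ^ k * (N⁻¹ * 2 ^ j * M) * Real.exp (2 * κ) := by ring
    calc 2 ^ k * N * ∑ i ∈ range T, κ ^ (i + 1) / ((i + 1).factorial : ℝ)
          + 2 ^ k * (N⁻¹ * 2 ^ j * M) / 2
            * ∑ i ∈ range T, (2 * κ) ^ (i + 1) / ((i + 1).factorial : ℝ)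
        ≤ 2 ^ k * N * (Real.exp κ - 1) + 2 ^ k * (N⁻¹ * 2 ^ j * M) * Real.exp (2 * κ) :=
          add_le_add h6 h7
      _ = 2 ^ k * (N * (Real.exp κ - 1) + N⁻¹ * 2 ^ j * Real.exp (2 * κ) * M) := by ring
  -- the error terms
  have hfro : Phi k (n + 1) T j ≤
      ∑ t ∈ range T, (((AA k n) ^ t - (GG k n) ^ t) (((K (k - 1) n) ^ j) sv) univ
        + (T * ((k : ℝ) ^ 2 / (8 * (n + 1) ^ 2)) + 2 * j * k / (n + 1))) := by
    unfold Phi
    refine sum_le_sum fun t ht => ?_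
    have h1 := frozen_le k n t j (by omega) hn
    have h2 : (t : ℝ) * ((k : ℝ) ^ 2 / (8 * (n + 1) ^ 2))
        ≤ T * ((k : ℝ) ^ 2 / (8 * (n + 1) ^ 2)) := by
      apply mul_le_mul_of_nonneg_right _ (by positivity)
      exact_mod_cast (mem_range.mp ht).le
    linarith
  rw [sum_add_distrib, sum_const, card_range, nsmul_eq_mul] at hfro
  linarith

end P170
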