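import Vale.Agent.H6.Sat.Defs

/-! Arrays satisfying the interpolation inequality and the window inequality. -/

namespace P170
open Finset

/-- the interpolation inequality for an array -/
def Interp (P : ℕ → ℕ → ℝ) : Prop :=
  ∀ n1 n2 t : ℕ, 1 ≤ n1 → 1 ≤ n2 →
    ∑ i ∈ range (t + 1), (t.choose i : ℝ) * ((n1 : ℝ) / (n1 + n2)) ^ i
        * ((n2 : ℝ) / (n1 + n2)) ^ (t - i) * (P n1 i * P n2 (t - i))
      ≤ P (n1 + n2) t

/-- the window inequality for an array -/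
def Win (P : ℕ → ℕ → ℝ) : Prop :=
  ∀ B : ℝ, 0 < B → ∃ C : ℝ, 0 < C ∧ ∀ n : ℕ, 1 ≤ n → ∀ a b : ℕ, a ≤ b → (b : ℝ) ≤ B * n →
    ((b : ℝ) - a) ^ 2 * P n b * (1 - P n a) ≤ C * (n : ℝ) ^ (5 / 3 : ℝ)

/-- basic properties of an array -/
structure Arr (P : ℕ → ℕ → ℝ) : Prop where
  nonneg : ∀ n t, 0 ≤ P n t
  le_one : ∀ n t, 1 ≤ n → P n t ≤ 1
  anti : ∀ n, 1 ≤ n → Antitone (P n)
  zero : ∀ n, 1 ≤ n → P n 0 = 1

end P170
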