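import Vale.Agent.H6.Sat.Kill
import Vale.Agent.H28.P170.Var

/-! Rows V1, V2, V3: the variance of `min (τ, T)` (helper28). The operator argument is in
`Vale.Agent.H28.P170.Var`; here it is applied to the operators `K k n`. -/

namespace P170
open Finset

theorem K_eq_avg (k n : ℕ) [Nonempty (Cl k n)] :
    K k n = Vale.Agent.H28.P170.avg (fun (c : Cl k n) (S : St n) => cut S c) := by
  refine LinearMap.ext fun φ => ?_
  funext S
  rw [K_apply, Vale.Agent.H28.P170.avg_apply, card_Cl]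

theorem nonempty_Cl (k n : ℕ) (hn : 1 ≤ n) : Nonempty (Cl k n) :=
  ⟨fun _ => (⟨0, hn⟩, true)⟩

theorem cut_subset {k n : ℕ} (S : St n) (c : Cl k n) : cut S c ⊆ S := filter_subset _ _

theorem sv_zero_or_one {n : ℕ} (S : St n) : sv S = 0 ∨ sv S = 1 := by
  unfold sv
  split_ifs
  · exact Or.inr rfl
  · exact Or.inl rfl

/-- Row V1c. -/
theorem var_bound (k n T : ℕ) (hn : 1 ≤ n) (hk : 1 ≤ k) (η : ℝ) (hη : 0 < η) (hη1 : η ≤ 1)
    (L : ℝ) (hL : ∑ t ∈ range T, ((K k n) ^ t) xx univ ≤ L) :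
    ∑ t ∈ range T, (2 * t + 1 : ℝ) * PP k n t - (∑ t ∈ range T, PP k n t) ^ 2
      ≤ 2 * T * (η ^ k)⁻¹ + 2 * (T : ℝ) ^ 2 * η ^ (k - 1) * L := by
  have := nonempty_Cl k n hn
  have h := Vale.Agent.H28.P170.vv_le (fun (c : Cl k n) (S : St n) => cut S c)
    (fun c c' S => cut_comm S c' c) sv xx sv_zero_or_one (fun c S => sv_mono (cut_subset S c))
    xx_nonneg k (fun S => by rw [← K_eq_avg]; exact kill k n hn hk S) η hη hk T univ
  rw [← K_eq_avg] at h
  have e : Vale.Agent.H28.P170.vv (fun (c : Cl k n) (S : St n) => cut S c) sv T univ =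
      ∑ t ∈ range T, (2 * t + 1 : ℝ) * PP k n t - (∑ t ∈ range T, PP k n t) ^ 2 := by
    unfold Vale.Agent.H28.P170.vv Vale.Agent.H28.P170.ww Vale.Agent.H28.P170.hh PP
    rw [← K_eq_avg, Finset.sum_apply, Finset.sum_apply]
    congr 1
    apply sum_congr rfl
    intro t _
    rw [Pi.smul_apply, smul_eq_mul]
    push_cast
    rfl
  rw [e, inv_pow] at h
  refine h.trans ?_
  have : 0 ≤ 2 * (T : ℝ) ^ 2 * η ^ (k - 1) := by positivity
  linarith [mul_le_mul_of_nonneg_left hL this]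

end P170
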