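import Vale.Agent.H6.Sat.LemA
import Vale.Agent.H6.Sat.Var
import Vale.Agent.H6.Sat.Num

/-! Row V3: the window inequality. -/

namespace P170
open Finset

theorem PP_nonneg (k n t : ℕ) : 0 ≤ PP k n t :=
  ((K_pos k n).pow t) sv (fun S => sv_nonneg S) univ

theorem PP_le_one (k n t : ℕ) (hn : 1 ≤ n) : PP k n t ≤ 1 :=
  ((K_mark k n hn).pow t).le (fun S => sv_le_one S) univ

theorem window_K_sv_le (k n : ℕ) (hn : 1 ≤ n) (S : St n) : K k n sv S ≤ sv S := by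
  have hn' : (0 : ℝ) < n := by exact_mod_cast hn
  rw [K_apply, div_le_iff₀ (by positivity)]
  calc ∑ c : Cl k n, sv (cut S c) ≤ ∑ _c : Cl k n, sv S :=
        sum_le_sum fun c _ => sv_mono (filter_subset _ _)
    _ = sv S * (2 * n : ℝ) ^ k := by
        rw [sum_const, card_univ, nsmul_eq_mul, card_Cl, mul_comm]

theorem PP_antitone (k n : ℕ) (hn : 1 ≤ n) : Antitone (PP k n) := by
  refine antitone_nat_of_succ_le fun t => ?_
  unfold PP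
  rw [pow_succ, Module.End.mul_apply]
  exact ((K_pos k n).pow t).mono (fun S => window_K_sv_le k n hn S) univ

/-- `η = n^{-1/(2k)}`: `η^{-k} = n^{1/2}`, `η^{k-1} ≤ n^{-1/3}`. -/
theorem window (k : ℕ) (hk : 3 ≤ k) (B : ℝ) (hB : 0 < B) :
    ∃ C : ℝ, 0 < C ∧ ∀ n : ℕ, 1 ≤ n → ∀ a b : ℕ, a ≤ b → (b : ℝ) ≤ B * n →
      ((b : ℝ) - a) ^ 2 * PP k n b * (1 - PP k n a) ≤ C * (n : ℝ) ^ (5 / 3 : ℝ) := by
  obtain ⟨L, hL0, hL⟩ := lemmaA k hk B hB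
  refine ⟨2 * B + 2 * B ^ 2 * L, by positivity, fun n hn a b hab hb => ?_⟩
  have h1 := var_lower (PP k n) (PP_nonneg k n) (fun t => PP_le_one k n t hn)
    (PP_antitone k n hn) a b hab
  have hn1 : (1 : ℝ) ≤ n := by exact_mod_cast hn
  have hn0 : (0 : ℝ) < n := by linarith
  have hk0 : (0 : ℝ) < k := by
    have : 0 < k := by omega
    exact_mod_cast this
  have hk3 : (3 : ℝ) ≤ k := by exact_mod_cast hk
  set η : ℝ := (n : ℝ) ^ (-(1 / (2 * k)) : ℝ) with hη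
  have hη0 : 0 < η := Real.rpow_pos_of_pos hn0 _
  have hη1 : η ≤ 1 := Real.rpow_le_one_of_one_le_of_nonpos hn1 (by
    rw [neg_nonpos]; positivity)
  have h2 := var_bound k n b hn (by omega) η hη0 hη1 L (hL n hn b hb)
  have e1 : (η ^ k)⁻¹ = (n : ℝ) ^ (1 / 2 : ℝ) := by
    rw [hη, ← Real.rpow_natCast, ← Real.rpow_mul hn0.le, ← Real.rpow_neg hn0.le]
    congr 1
    field_simp
  have e2 : η ^ (k - 1) ≤ (n : ℝ) ^ (-(1 / 3) : ℝ) := by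
    rw [hη, ← Real.rpow_natCast, ← Real.rpow_mul hn0.le]
    apply Real.rpow_le_rpow_of_exponent_le hn1
    rw [Nat.cast_sub (by omega), Nat.cast_one, neg_mul, neg_le_neg_iff]
    rw [div_mul_eq_mul_div, one_mul, div_le_div_iff₀ (by norm_num) (by positivity)]
    linarith
  have hb0 : (0 : ℝ) ≤ b := by positivity
  have s1 : 2 * (b : ℝ) * (η ^ k)⁻¹ ≤ 2 * B * (n : ℝ) ^ (5 / 3 : ℝ) := by
    rw [e1]
    have g1 : (n : ℝ) * (n : ℝ) ^ (1 / 2 : ℝ) ≤ (n : ℝ) ^ (5 / 3 : ℝ) := by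
      have : (n : ℝ) * (n : ℝ) ^ (1 / 2 : ℝ) = (n : ℝ) ^ (1 + 1 / 2 : ℝ) := by
        rw [Real.rpow_add hn0, Real.rpow_one]
      rw [this]
      exact Real.rpow_le_rpow_of_exponent_le hn1 (by norm_num)
    calc 2 * (b : ℝ) * (n : ℝ) ^ (1 / 2 : ℝ) ≤ 2 * (B * n) * (n : ℝ) ^ (1 / 2 : ℝ) := by gcongr
      _ = 2 * B * ((n : ℝ) * (n : ℝ) ^ (1 / 2 : ℝ)) := by ring
      _ ≤ _ := by gcongr
  have s2 : 2 * (b : ℝ) ^ 2 * η ^ (k - 1) * L ≤ 2 * B ^ 2 * L * (n : ℝ) ^ (5 / 3 : ℝ) := by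
    have g2 : (n : ℝ) ^ 2 * (n : ℝ) ^ (-(1 / 3) : ℝ) = (n : ℝ) ^ (5 / 3 : ℝ) := by
      rw [← Real.rpow_natCast, ← Real.rpow_add hn0]
      norm_num
    calc 2 * (b : ℝ) ^ 2 * η ^ (k - 1) * L ≤ 2 * (B * n) ^ 2 * (n : ℝ) ^ (-(1 / 3) : ℝ) * L := by
          gcongr
      _ = 2 * B ^ 2 * L * ((n : ℝ) ^ 2 * (n : ℝ) ^ (-(1 / 3) : ℝ)) := by ring
      _ = _ := by rw [g2]
  calc _ ≤ _ := h1
    _ ≤ _ := h2
    _ ≤ _ := by linarith

end P170
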